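import Vale.Agent.Lib.P084T.YSide2

/-!
Second order regularity of the target norm, read off tangent hyperplanes.
-/

open Module Filter Topology

namespace Vale.Agent.Lib.P084T

variable {X Y : Type*} [NormedAddCommGroup X] [NormedSpace ℝ X]
  [NormedAddCommGroup Y] [NormedSpace ℝ Y]

lemma line_hasDerivAt {x h : Y} (t : ℝ) :
    HasDerivAt (fun s : ℝ => x + s • h) h t := by
  have h1 : HasDerivAt (fun s : ℝ => s • h) ((1 : ℝ) • h) t := (hasDerivAt_id t).smul_const h
  simpa using h1.const_add x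

/-- On a tangent hyperplane the derivative of `G` is isometric. -/
lemma tangent_norm {G : Y → X} {u y h : Y} (hG : HomIso G) (hu : u ≠ 0)
    (hGd : DifferentiableAt ℝ G u) (hnd : DifferentiableAt ℝ (norm : Y → ℝ) u)
    (hy : fderiv ℝ norm u y = 0) (hh : fderiv ℝ norm u h = 0) (s : ℝ) :
    ‖fderiv ℝ G u y + s • fderiv ℝ G u h‖ = ‖y + s • h‖ := by
  have hw : fderiv ℝ norm u (y + s • h) = 0 := by simp [hy, hh]
  have := Setup.DF_isometry_gen hG hu hGd hnd hw
  simpa [map_add, map_smul] using this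

/-- The derivative of the target norm along a line inside a tangent hyperplane. -/
lemma tangent_line {G : Y → X} {u y h : Y} (hX2 : ContDiffOn ℝ 2 (norm : X → ℝ) {0}ᶜ)
    (hY1 : ContDiffOn ℝ 1 (norm : Y → ℝ) {0}ᶜ) (hG : HomIso G) (hu : u ≠ 0)
    (hGd : DifferentiableAt ℝ G u) (hy0 : y ≠ 0)
    (hy : fderiv ℝ norm u y = 0) (hh : fderiv ℝ norm u h = 0) :
    HasDerivAt (fun t : ℝ => fderiv ℝ (norm : Y → ℝ) (y + t • h) h)
      (fderiv ℝ (fderiv ℝ (norm : X → ℝ)) (fderiv ℝ G u y) (fderiv ℝ G u h) (fderiv ℝ G u h)) 0 := by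
  have hdY : ∀ z : Y, z ≠ 0 → DifferentiableAt ℝ (norm : Y → ℝ) z := fun z hz =>
    (hY1.contDiffAt (isOpen_compl_singleton.mem_nhds hz)).differentiableAt (by norm_num)
  have hnd := hdY u hu
  have hLn := tangent_norm hG hu hGd hnd hy hh
  set L := fderiv ℝ G u with hL
  have hLy0 : L y ≠ 0 := by
    have := hLn 0
    simp only [zero_smul, add_zero] at this
    rw [← norm_ne_zero_iff, this, norm_ne_zero_iff]
    exact hy0
  have h1 : HasDerivAt (fun t : ℝ => fderiv ℝ (norm : X → ℝ) (L y + t • L h) (L h))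
      (fderiv ℝ (fderiv ℝ (norm : X → ℝ)) (L y) (L h) (L h)) 0 := by
    have h2 := (has2 (nAt hX2 hLy0)).comp_hasDerivAt_of_eq (0 : ℝ)
      (line_hasDerivAt (x := L y) (h := L h) 0) (by simp)
    have h3 := h2.clm_apply (hasDerivAt_const (0 : ℝ) (L h))
    simpa using h3
  refine h1.congr_of_eventuallyEq ?_
  have hc : ContinuousAt (fun t : ℝ => y + t • h) 0 := by fun_prop
  have hev : ∀ᶠ t in 𝓝 (0 : ℝ), y + t • h ≠ 0 := hc.eventually_ne (by simpa using hy0)
  filter_upwards [hev] with t ht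
  have ht' : L y + t • L h ≠ 0 := by
    rw [← norm_ne_zero_iff, hLn, norm_ne_zero_iff]
    exact ht
  have hX1 : DifferentiableAt ℝ (norm : X → ℝ) (L y + t • L h) :=
    (nAt hX2 ht').differentiableAt (by norm_num)
  have h4 : HasDerivAt (fun s : ℝ => ‖y + s • h‖) (fderiv ℝ norm (y + t • h) h) t :=
    (hdY _ ht).hasFDerivAt.comp_hasDerivAt t (line_hasDerivAt t)
  have h5 : HasDerivAt (fun s : ℝ => ‖L y + s • L h‖) (fderiv ℝ norm (L y + t • L h) (L h)) t :=
    hX1.hasFDerivAt.comp_hasDerivAt t (line_hasDerivAt t)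
  have h6 : (fun s : ℝ => ‖L y + s • L h‖) = fun s : ℝ => ‖y + s • h‖ := funext hLn
  rw [h6] at h5
  exact h4.unique h5

/-- The second derivative along lines. -/
noncomputable def qY (y h : Y) : ℝ := deriv (fun t : ℝ => fderiv ℝ (norm : Y → ℝ) (y + t • h) h) 0

/-- The target norm has the line data needed by the regularity lemma. -/
theorem lineData [FiniteDimensional ℝ Y] {G : Y → X} (hX2 : ContDiffOn ℝ 2 (norm : X → ℝ) {0}ᶜ)
    (hY1 : ContDiffOn ℝ 1 (norm : Y → ℝ) {0}ᶜ) (hG : HomIso G)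
    (hcG : ∀ y : Y, y ≠ 0 → ContDiffAt ℝ 1 G y) (hrank : 3 ≤ finrank ℝ Y) :
    LineData (norm : Y → ℝ) qY {0}ᶜ := by
  have hGd : ∀ u : Y, u ≠ 0 → DifferentiableAt ℝ G u := fun u hu =>
    (hcG u hu).differentiableAt (by norm_num)
  have hq : ∀ {u y h : Y}, u ≠ 0 → y ≠ 0 → fderiv ℝ norm u y = 0 → fderiv ℝ norm u h = 0 →
      qY y h = fderiv ℝ (fderiv ℝ (norm : X → ℝ)) (fderiv ℝ G u y) (fderiv ℝ G u h)
        (fderiv ℝ G u h) := fun hu hy0 hy hh =>
    (tangent_line hX2 hY1 hG hu (hGd _ hu) hy0 hy hh).deriv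
  refine ⟨isOpen_compl_singleton, hY1, ?_, ?_⟩
  · rintro ⟨y, h⟩ hz
    have hy0 : y ≠ 0 := by simpa using hz.1
    refine ContinuousAt.continuousWithinAt ?_
    refine tendsto_of_subseq_tendsto fun ns hns => ?_
    have hy : Tendsto (fun j => (ns j).1) atTop (𝓝 y) :=
      (continuous_fst.tendsto (y, h)).comp hns
    have hh : Tendsto (fun j => (ns j).2) atTop (𝓝 h) :=
      (continuous_snd.tendsto (y, h)).comp hns
    choose us hus1 hus2 hus3 using fun j => exists_tangent_unit hY1 hrank (ns j).1 (ns j).2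
    have hprop : ProperSpace Y := FiniteDimensional.proper_real _
    obtain ⟨u, hu, φ, hφ, hlim₀⟩ := (isCompact_sphere (0 : Y) 1).tendsto_subseq (x := us)
      (fun j => by simpa using hus1 j)
    have hlim : Tendsto (fun j => us (φ j)) atTop (𝓝 u) := hlim₀
    have hu1 : ‖u‖ = 1 := by simpa using hu
    have hu0 : u ≠ 0 := by
      intro h0
      rw [h0, norm_zero] at hu1
      exact zero_ne_one hu1
    have hyφ : Tendsto (fun j => (ns (φ j)).1) atTop (𝓝 y) := hy.comp hφ.tendsto_atTop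
    have hhφ : Tendsto (fun j => (ns (φ j)).2) atTop (𝓝 h) := hh.comp hφ.tendsto_atTop
    have hDn : Tendsto (fun j => fderiv ℝ (norm : Y → ℝ) (us (φ j))) atTop
        (𝓝 (fderiv ℝ norm u)) :=
      ((hY1.contDiffAt (isOpen_compl_singleton.mem_nhds hu0)).fderiv_right (m := 0)
        (by norm_num)).continuousAt.tendsto.comp hlim
    have hLt : Tendsto (fun j => fderiv ℝ G (us (φ j))) atTop (𝓝 (fderiv ℝ G u)) :=
      ((hcG u hu0).fderiv_right (m := 0) (by norm_num)).continuousAt.tendsto.comp hlim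
    have hu2 : fderiv ℝ norm u y = 0 := by
      refine tendsto_nhds_unique (tendsto_clm_apply hDn hyφ) ?_
      simp only [hus2]
      exact tendsto_const_nhds
    have hu3 : fderiv ℝ norm u h = 0 := by
      refine tendsto_nhds_unique (tendsto_clm_apply hDn hhφ) ?_
      simp only [hus3]
      exact tendsto_const_nhds
    have hnd : DifferentiableAt ℝ (norm : Y → ℝ) u :=
      (hY1.contDiffAt (isOpen_compl_singleton.mem_nhds hu0)).differentiableAt (by norm_num)
    have hLy0 : fderiv ℝ G u y ≠ 0 := by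
      have := tangent_norm hG hu0 (hGd _ hu0) hnd hu2 hu3 0
      simp only [zero_smul, add_zero] at this
      rw [← norm_ne_zero_iff, this, norm_ne_zero_iff]
      exact hy0
    have hLy : Tendsto (fun j => fderiv ℝ G (us (φ j)) (ns (φ j)).1) atTop
        (𝓝 (fderiv ℝ G u y)) := tendsto_clm_apply hLt hyφ
    have hLh : Tendsto (fun j => fderiv ℝ G (us (φ j)) (ns (φ j)).2) atTop
        (𝓝 (fderiv ℝ G u h)) := tendsto_clm_apply hLt hhφ
    have hD2 : ContinuousAt (fderiv ℝ (fderiv ℝ (norm : X → ℝ))) (fderiv ℝ G u y) :=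
      cont2 (nAt hX2 hLy0)
    have hmain := tendsto_clm_apply (tendsto_clm_apply (hD2.tendsto.comp hLy) hLh) hLh
    refine ⟨φ, ?_⟩
    simp only [hq hu0 hy0 hu2 hu3]
    refine hmain.congr' ?_
    filter_upwards [hyφ.eventually_ne hy0] with j hj
    have hu0' : us (φ j) ≠ 0 := by
      intro h0
      have := hus1 (φ j)
      rw [h0, norm_zero] at this
      exact zero_ne_one this
    exact (hq hu0' hj (hus2 _) (hus3 _)).symm
  · intro y hy h
    have hy0 : y ≠ 0 := hy
    obtain ⟨u, hu1, hu2, hu3⟩ := exists_tangent_unit hY1 hrank y h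
    have hu0 : u ≠ 0 := by
      intro h0
      rw [h0, norm_zero] at hu1
      exact zero_ne_one hu1
    have h1 := tangent_line hX2 hY1 hG hu0 (hGd _ hu0) hy0 hu2 hu3
    rw [hq hu0 hy0 hu2 hu3]
    exact h1

end Vale.Agent.Lib.P084T
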