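import Vale.Agent.Lib.P084T.Smooth

/-!
Differential identities for the homogeneous extension of a sphere isometry.
-/

open Module Filter Topology

namespace Vale.Agent.Lib.P084T

section generic

variable {E E' : Type*} [NormedAddCommGroup E] [NormedSpace ℝ E] [NormedAddCommGroup E']
  [NormedSpace ℝ E']

lemma has1 {f : E → E'} {x : E} (hf : ContDiffAt ℝ 2 f x) : HasFDerivAt f (fderiv ℝ f x) x :=
  (hf.differentiableAt (by norm_num)).hasFDerivAt

lemma cd1 {f : E → E'} {x : E} (hf : ContDiffAt ℝ 2 f x) : ContDiffAt ℝ 1 (fderiv ℝ f) x :=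
  hf.fderiv_right (by norm_num)

lemma has2 {f : E → E'} {x : E} (hf : ContDiffAt ℝ 2 f x) :
    HasFDerivAt (fderiv ℝ f) (fderiv ℝ (fderiv ℝ f) x) x :=
  ((cd1 hf).differentiableAt (by norm_num)).hasFDerivAt

lemma cont2 {f : E → E'} {x : E} (hf : ContDiffAt ℝ 2 f x) :
    ContinuousAt (fderiv ℝ (fderiv ℝ f)) x :=
  ((cd1 hf).fderiv_right (m := 0) (by norm_num)).continuousAt

lemma symm2 {f : E → E'} {x : E} (hf : ContDiffAt ℝ 2 f x) (a b : E) :
    fderiv ℝ (fderiv ℝ f) x a b = fderiv ℝ (fderiv ℝ f) x b a := by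
  have h : IsSymmSndFDerivAt ℝ f x := hf.isSymmSndFDerivAt (by simp)
  exact h a b

/-- A map constant on a ray has vanishing derivative along the ray. -/
lemma fderiv_ray_zero {G : E → E'} {x : E} (hd : DifferentiableAt ℝ G x)
    (hr : ∀ r : ℝ, 0 < r → G (r • x) = G x) : fderiv ℝ G x x = 0 := by
  have h1 : HasDerivAt (fun r : ℝ => r • x) ((1 : ℝ) • x) (1 : ℝ) :=
    (hasDerivAt_id (1 : ℝ)).smul_const x
  have h2 : DifferentiableAt ℝ G ((1 : ℝ) • x) := by simpa using hd
  have h3 := h2.hasFDerivAt.comp_hasDerivAt (1 : ℝ) h1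
  have h4 : HasDerivAt (G ∘ fun r : ℝ => r • x) 0 (1 : ℝ) := by
    have h5 : HasDerivAt (fun _ : ℝ => G x) 0 (1 : ℝ) := hasDerivAt_const _ _
    refine h5.congr_of_eventuallyEq ?_
    filter_upwards [lt_mem_nhds (zero_lt_one' ℝ)] with r hr0
    exact hr r hr0
  have h6 := h3.unique h4
  simpa using h6

/-- Euler identity. -/
lemma euler {G : E → E'} {x : E} (hd : DifferentiableAt ℝ G x)
    (hr : ∀ r : ℝ, 0 < r → G (r • x) = r • G x) : fderiv ℝ G x x = G x := by
  have h1 : HasDerivAt (fun r : ℝ => r • x) ((1 : ℝ) • x) (1 : ℝ) :=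
    (hasDerivAt_id (1 : ℝ)).smul_const x
  have h2 : DifferentiableAt ℝ G ((1 : ℝ) • x) := by simpa using hd
  have h3 := h2.hasFDerivAt.comp_hasDerivAt (1 : ℝ) h1
  have h4 : HasDerivAt (G ∘ fun r : ℝ => r • x) ((1 : ℝ) • G x) (1 : ℝ) := by
    have h5 : HasDerivAt (fun r : ℝ => r • G x) ((1 : ℝ) • G x) (1 : ℝ) :=
      (hasDerivAt_id (1 : ℝ)).smul_const (G x)
    refine h5.congr_of_eventuallyEq ?_
    filter_upwards [lt_mem_nhds (zero_lt_one' ℝ)] with r hr0
    exact hr r hr0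
  have h6 := h3.unique h4
  simpa using h6

/-- Homogeneity of the derivative. -/
lemma fderiv_homog {G : E → E'} {x : E} {r c : ℝ} (hr : r ≠ 0) (hG : ∀ y, G (r • y) = c • G y)
    (hd : DifferentiableAt ℝ G x) (hd' : DifferentiableAt ℝ G (r • x)) :
    fderiv ℝ G (r • x) = (c / r) • fderiv ℝ G x := by
  have h1 : HasFDerivAt (fun y : E => r • y) (r • ContinuousLinearMap.id ℝ E) x :=
    (hasFDerivAt_id x).const_smul r
  have h2 := hd'.hasFDerivAt.comp x h1
  have h3 : HasFDerivAt (G ∘ fun y : E => r • y) (c • fderiv ℝ G x) x := by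
    have h4 := hd.hasFDerivAt.const_smul c
    have h5 : (G ∘ fun y : E => r • y) = c • G := by
      funext y
      simp [hG]
    rw [h5]
    exact h4
  have h6 := h2.unique h3
  ext v
  have h7 := congrArg (fun T => T (r⁻¹ • v)) h6
  simp only [ContinuousLinearMap.comp_apply, smul_apply,
    ContinuousLinearMap.id_apply, smul_smul, inv_mul_cancel₀ hr, one_smul, map_smul] at h7
  rw [h7, smul_apply, div_eq_inv_mul]

/-- Product rule at a zero of the first factor, the second factor being merely continuous. -/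
lemma hasFDerivAt_bilin_of_zero {F G H : Type*} [NormedAddCommGroup F] [NormedSpace ℝ F]
    [NormedAddCommGroup G] [NormedSpace ℝ G] [NormedAddCommGroup H] [NormedSpace ℝ H]
    (b : F →L[ℝ] G →L[ℝ] H) {u : E → F} {w : E → G} {p : E} {u' : E →L[ℝ] F}
    (hu : HasFDerivAt u u' p) (hu0 : u p = 0) (hw : ContinuousAt w p) :
    HasFDerivAt (fun x => b (u x) (w x)) ((b.flip (w p)).comp u') p := by
  have h1 : HasFDerivAt (fun x => b (u x) (w p)) ((b.flip (w p)).comp u') p :=
    (b.flip (w p)).hasFDerivAt.comp p hu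
  have h2 : HasFDerivAt (fun x => b (u x) (w x - w p)) (0 : E →L[ℝ] H) p := by
    rw [hasFDerivAt_iff_isLittleO]
    have hval : b (u p) (w p - w p) = 0 := by simp
    have h3 : (fun x => u x) =O[𝓝 p] fun x => x - p := by
      have := hu.isBigO_sub
      simpa [hu0] using this
    have h4 : (fun x => w x - w p) =o[𝓝 p] fun _ => (1 : ℝ) := by
      rw [Asymptotics.isLittleO_one_iff]
      have := hw.tendsto
      simpa using this.sub_const (w p)
    have h5 : (fun x => b (u x) (w x - w p)) =O[𝓝 p] fun x => ‖u x‖ * ‖w x - w p‖ := by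
      refine Asymptotics.IsBigO.of_bound ‖b‖ (Eventually.of_forall fun x => ?_)
      have := b.le_opNorm₂ (u x) (w x - w p)
      simpa [mul_assoc] using this
    have h6 : (fun x => ‖u x‖ * ‖w x - w p‖) =o[𝓝 p] fun x => x - p := by
      have h7 := (h3.norm_left.norm_right).mul_isLittleO h4.norm_left
      have h7' : (fun x => ‖u x‖ * ‖w x - w p‖) =o[𝓝 p] fun x => ‖x - p‖ := by simpa using h7
      exact h7'.of_norm_right
    have h8 := h5.trans_isLittleO h6
    simpa [hval] using h8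
  have h3 := h1.add h2
  rw [add_zero] at h3
  refine h3.congr_of_eventuallyEq ?_
  filter_upwards with x
  simp

/-- Variant: a continuous family of linear maps applied to a differentiable vanishing map. -/
lemma hasFDerivAt_clm_of_zero {F H : Type*} [NormedAddCommGroup F] [NormedSpace ℝ F]
    [NormedAddCommGroup H] [NormedSpace ℝ H]
    {R : E → F →L[ℝ] H} {u : E → F} {p : E} {u' : E →L[ℝ] F}
    (hu : HasFDerivAt u u' p) (hu0 : u p = 0) (hR : ContinuousAt R p) :
    HasFDerivAt (fun x => R x (u x)) ((R p).comp u') p := by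
  have := hasFDerivAt_bilin_of_zero (ContinuousLinearMap.apply ℝ H) hu hu0 hR
  exact this

end generic

section normderiv

variable {E : Type*} [NormedAddCommGroup E] [NormedSpace ℝ E]

lemma nAt (h : ContDiffOn ℝ 2 (norm : E → ℝ) {0}ᶜ) {x : E} (hx : x ≠ 0) :
    ContDiffAt ℝ 2 (norm : E → ℝ) x :=
  h.contDiffAt (isOpen_compl_singleton.mem_nhds hx)

lemma D1_smul {r : ℝ} (hr : 0 < r) (x : E) :
    fderiv ℝ (norm : E → ℝ) (r • x) = fderiv ℝ norm x := fderiv_norm_smul_pos hr

lemma D1_self (h : ContDiffOn ℝ 2 (norm : E → ℝ) {0}ᶜ) {x : E} (hx : x ≠ 0) :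
    fderiv ℝ (norm : E → ℝ) x x = ‖x‖ :=
  ((nAt h hx).differentiableAt (by norm_num)).fderiv_norm_self

lemma D2_smul (h : ContDiffOn ℝ 2 (norm : E → ℝ) {0}ᶜ) {r : ℝ} (hr : 0 < r) {x : E} (hx : x ≠ 0) :
    fderiv ℝ (fderiv ℝ (norm : E → ℝ)) (r • x) = r⁻¹ • fderiv ℝ (fderiv ℝ norm) x := by
  have hx' : r • x ≠ 0 := smul_ne_zero hr.ne' hx
  have := fderiv_homog (G := fderiv ℝ (norm : E → ℝ)) (x := x) (r := r) (c := 1) hr.ne'
    (fun y => by rw [one_smul]; exact D1_smul hr y)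
    ((has2 (nAt h hx)).differentiableAt) ((has2 (nAt h hx')).differentiableAt)
  rw [this, one_div]

lemma D2_self (h : ContDiffOn ℝ 2 (norm : E → ℝ) {0}ᶜ) {x : E} (hx : x ≠ 0) :
    fderiv ℝ (fderiv ℝ (norm : E → ℝ)) x x = 0 :=
  fderiv_ray_zero (has2 (nAt h hx)).differentiableAt fun _ hr => D1_smul hr x

lemma D2_self' (h : ContDiffOn ℝ 2 (norm : E → ℝ) {0}ᶜ) {x : E} (hx : x ≠ 0) (a : E) :
    fderiv ℝ (fderiv ℝ (norm : E → ℝ)) x a x = 0 := by
  rw [symm2 (nAt h hx), D2_self h hx]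
  simp

end normderiv

end Vale.Agent.Lib.P084T
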