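import Vale.Agent.Lib.P084T.Ident

/-!
Differential identities for the homogeneous extension of a sphere isometry.
-/

open Module Filter Topology

namespace Vale.Agent.Lib.P084T

variable {X Y : Type*} [NormedAddCommGroup X] [NormedSpace ℝ X]
  [NormedAddCommGroup Y] [NormedSpace ℝ Y]

/-- The standing assumptions on the homogeneous extension `F`. -/
structure Setup (F : X → Y) : Prop where
  hom : HomIso F
  odd : ∀ x, F (-x) = -F x
  X3 : ContDiffOn ℝ 2 (norm : X → ℝ) {0}ᶜ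
  Y3 : ContDiffOn ℝ 2 (norm : Y → ℝ) {0}ᶜ
  cd : ∀ x : X, x ≠ 0 → ContDiffAt ℝ 2 F x

namespace Setup

variable {F : X → Y} (S : Setup F)

include S

lemma F_ne {x : X} (hx : x ≠ 0) : F x ≠ 0 := by
  rw [← norm_ne_zero_iff, S.hom.norm_eq]
  exact norm_ne_zero_iff.2 hx

lemma H_identity (x y : X) :
    ‖‖y‖ • F x + ‖x‖ • F y‖ = ‖‖y‖ • x + ‖x‖ • y‖ := by
  by_cases hx : x = 0
  · simp [hx, S.hom.map_zero]
  by_cases hy : y = 0
  · simp [hy, S.hom.map_zero]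
  have h1 : ‖‖y‖ • x‖ = ‖-(‖x‖ • y)‖ := by
    rw [norm_neg, norm_smul, norm_smul, norm_norm, norm_norm, mul_comm]
  have h2 := S.hom.dist_same h1
  rw [S.odd, S.hom.smul _ (norm_pos_iff.2 hy), S.hom.smul _ (norm_pos_iff.2 hx), sub_neg_eq_add,
    sub_neg_eq_add] at h2
  exact h2

/-- `n' ∘ F = n`, first derivative. -/
lemma I0 {x : X} (hx : x ≠ 0) (w : X) :
    fderiv ℝ norm (F x) (fderiv ℝ F x w) = fderiv ℝ norm x w := by
  have h1 := (has1 (nAt S.Y3 (S.F_ne hx))).comp x (has1 (S.cd x hx))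
  have h2 : (norm ∘ F) = (norm : X → ℝ) := by
    funext y
    exact S.hom.norm_eq y
  rw [h2] at h1
  have h3 := h1.unique (has1 (nAt S.X3 hx))
  have h4 := congrArg (fun T => T w) h3
  simpa using h4

/-- Euler identity for `F`. -/
lemma euler_F {x : X} (hx : x ≠ 0) : fderiv ℝ F x x = F x :=
  euler (has1 (S.cd x hx)).differentiableAt fun r hr => S.hom.smul r hr x

/-- `DF` is homogeneous of degree `0`. -/
lemma DF_smul {r : ℝ} (hr : 0 < r) {x : X} (hx : x ≠ 0) : fderiv ℝ F (r • x) = fderiv ℝ F x := by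
  have hx' : r • x ≠ 0 := smul_ne_zero hr.ne' hx
  have := fderiv_homog (G := F) (x := x) (r := r) (c := r) hr.ne' (S.hom.smul r hr)
    (has1 (S.cd x hx)).differentiableAt (has1 (S.cd _ hx')).differentiableAt
  rw [this, div_self hr.ne', one_smul]

lemma D2F_self {x : X} (hx : x ≠ 0) : fderiv ℝ (fderiv ℝ F) x x = 0 :=
  fderiv_ray_zero (has2 (S.cd x hx)).differentiableAt fun _ hr => S.DF_smul hr hx

lemma D2F_self' {x : X} (hx : x ≠ 0) (a : X) : fderiv ℝ (fderiv ℝ F) x a x = 0 := by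
  rw [symm2 (S.cd x hx), S.D2F_self hx]
  simp

/-- first step for `I1`: derivative in `y` of the norm identity. -/
lemma stage1 {x₀ x : X} (hx₀ : x₀ ≠ 0) (hb : ‖x₀‖ • x + ‖x‖ • x₀ ≠ 0) (w : X) :
    fderiv ℝ norm (‖x₀‖ • F x + ‖x‖ • F x₀)
        (fderiv ℝ norm x₀ w • F x + ‖x‖ • fderiv ℝ F x₀ w) =
      fderiv ℝ norm (‖x₀‖ • x + ‖x‖ • x₀) (fderiv ℝ norm x₀ w • x + ‖x‖ • w) := by
  have ha : ‖x₀‖ • F x + ‖x‖ • F x₀ ≠ 0 := by
    rw [← norm_ne_zero_iff, S.H_identity, norm_ne_zero_iff]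
    exact hb
  have hnx₀ := has1 (nAt S.X3 hx₀)
  have h1 : HasFDerivAt (fun y => ‖y‖ • F x + ‖x‖ • F y)
      ((fderiv ℝ norm x₀).smulRight (F x) + ‖x‖ • fderiv ℝ F x₀) x₀ :=
    (hnx₀.smul_const (F x)).add ((has1 (S.cd x₀ hx₀)).const_smul ‖x‖)
  have h2 : HasFDerivAt (fun y => ‖y‖ • x + ‖x‖ • y)
      ((fderiv ℝ norm x₀).smulRight x + ‖x‖ • ContinuousLinearMap.id ℝ X) x₀ :=
    (hnx₀.smul_const x).add ((hasFDerivAt_id x₀).const_smul ‖x‖)
  have h3 := (has1 (nAt S.Y3 ha)).comp x₀ h1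
  have h4 := (has1 (nAt S.X3 hb)).comp x₀ h2
  have h5 : ((norm : Y → ℝ) ∘ fun y => ‖y‖ • F x + ‖x‖ • F y) =
      (norm : X → ℝ) ∘ fun y => ‖y‖ • x + ‖x‖ • y := by
    funext y
    exact S.H_identity x y
  rw [h5] at h3
  have h6 := h3.unique h4
  have h7 := congrArg (fun T => T w) h6
  simpa using h7

/-- Main second order identity. -/
theorem I1 {x₀ : X} (hx₀ : x₀ ≠ 0) (v w : X) :
    fderiv ℝ (fderiv ℝ norm) (F x₀) (fderiv ℝ F x₀ v) (fderiv ℝ F x₀ w) =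
      fderiv ℝ (fderiv ℝ norm) x₀ v w := by
  have hr : 0 < ‖x₀‖ := norm_pos_iff.2 hx₀
  have hF₀ : F x₀ ≠ 0 := S.F_ne hx₀
  have hnx₀ := has1 (nAt S.X3 hx₀)
  have hDF := has1 (S.cd x₀ hx₀)
  -- base points
  have ha₀ : ‖x₀‖ • F x₀ + ‖x₀‖ • F x₀ = (2 * ‖x₀‖) • F x₀ := by rw [two_mul, add_smul]
  have hb₀ : ‖x₀‖ • x₀ + ‖x₀‖ • x₀ = (2 * ‖x₀‖) • x₀ := by rw [two_mul, add_smul]
  have h2r : 0 < 2 * ‖x₀‖ := by positivity
  have ha₀ne : ‖x₀‖ • F x₀ + ‖x₀‖ • F x₀ ≠ 0 := by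
    rw [ha₀]
    exact smul_ne_zero h2r.ne' hF₀
  have hb₀ne : ‖x₀‖ • x₀ + ‖x₀‖ • x₀ ≠ 0 := by
    rw [hb₀]
    exact smul_ne_zero h2r.ne' hx₀
  have hA : HasFDerivAt (fun x => ‖x₀‖ • F x + ‖x‖ • F x₀)
      (‖x₀‖ • fderiv ℝ F x₀ + (fderiv ℝ norm x₀).smulRight (F x₀)) x₀ :=
    (hDF.const_smul ‖x₀‖).add (hnx₀.smul_const (F x₀))
  have hB : HasFDerivAt (fun x => ‖x₀‖ • x + ‖x‖ • x₀)
      (‖x₀‖ • ContinuousLinearMap.id ℝ X + (fderiv ℝ norm x₀).smulRight x₀) x₀ :=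
    ((hasFDerivAt_id x₀).const_smul ‖x₀‖).add (hnx₀.smul_const x₀)
  have hU : HasFDerivAt (fun x => fderiv ℝ norm x₀ w • F x + ‖x‖ • fderiv ℝ F x₀ w)
      (fderiv ℝ norm x₀ w • fderiv ℝ F x₀ + (fderiv ℝ norm x₀).smulRight (fderiv ℝ F x₀ w)) x₀ :=
    (hDF.const_smul _).add (hnx₀.smul_const _)
  have hV : HasFDerivAt (fun x => fderiv ℝ norm x₀ w • x + ‖x‖ • w)
      (fderiv ℝ norm x₀ w • ContinuousLinearMap.id ℝ X + (fderiv ℝ norm x₀).smulRight w) x₀ :=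
    ((hasFDerivAt_id x₀).const_smul _).add (hnx₀.smul_const _)
  have hC := (has2 (nAt S.Y3 ha₀ne)).comp x₀ hA
  have hD := (has2 (nAt S.X3 hb₀ne)).comp x₀ hB
  have hL := hC.clm_apply hU
  have hR := hD.clm_apply hV
  -- the two sides coincide near `x₀`
  have hev : ∀ᶠ x in 𝓝 x₀, ‖x₀‖ • x + ‖x‖ • x₀ ≠ 0 := by
    have hc : ContinuousAt (fun x : X => ‖x₀‖ • x + ‖x‖ • x₀) x₀ := by fun_prop
    exact hc.eventually_ne hb₀ne
  have hEq : (fun x => (fderiv ℝ (norm : Y → ℝ) ∘ fun x => ‖x₀‖ • F x + ‖x‖ • F x₀) x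
        (fderiv ℝ norm x₀ w • F x + ‖x‖ • fderiv ℝ F x₀ w)) =ᶠ[𝓝 x₀]
      fun x => (fderiv ℝ (norm : X → ℝ) ∘ fun x => ‖x₀‖ • x + ‖x‖ • x₀) x
        (fderiv ℝ norm x₀ w • x + ‖x‖ • w) := by
    filter_upwards [hev] with x hx
    exact S.stage1 hx₀ hx w
  have hUn := (hL.congr_of_eventuallyEq hEq.symm).unique hR
  have hv := congrArg (fun T => T v) hUn
  -- simplification
  have e1 : fderiv ℝ (norm : Y → ℝ) (‖x₀‖ • F x₀ + ‖x₀‖ • F x₀) = fderiv ℝ norm (F x₀) := by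
    rw [ha₀]; exact D1_smul h2r _
  have e2 : fderiv ℝ (norm : X → ℝ) (‖x₀‖ • x₀ + ‖x₀‖ • x₀) = fderiv ℝ norm x₀ := by
    rw [hb₀]; exact D1_smul h2r _
  have e3 : fderiv ℝ (fderiv ℝ (norm : Y → ℝ)) (‖x₀‖ • F x₀ + ‖x₀‖ • F x₀) =
      (2 * ‖x₀‖)⁻¹ • fderiv ℝ (fderiv ℝ norm) (F x₀) := by
    rw [ha₀]; exact D2_smul S.Y3 h2r hF₀
  have e4 : fderiv ℝ (fderiv ℝ (norm : X → ℝ)) (‖x₀‖ • x₀ + ‖x₀‖ • x₀) =
      (2 * ‖x₀‖)⁻¹ • fderiv ℝ (fderiv ℝ norm) x₀ := by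
    rw [hb₀]; exact D2_smul S.X3 h2r hx₀
  simp only [add_apply, ContinuousLinearMap.comp_apply, ContinuousLinearMap.flip_apply, smul_apply,
    ContinuousLinearMap.id_apply, ContinuousLinearMap.smulRight_apply, Function.comp_apply, e1, e2,
    e3, e4, map_add, map_smul, smul_eq_mul, S.I0 hx₀, D2_self S.Y3 hF₀, D2_self S.X3 hx₀,
    D2_self' S.Y3 hF₀, D2_self' S.X3 hx₀, zero_apply, mul_zero, add_zero, zero_add] at hv
  have h := add_left_cancel hv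
  exact mul_left_cancel₀ (inv_ne_zero h2r.ne') (mul_left_cancel₀ hr.ne' (mul_left_cancel₀ hr.ne' h))

omit S in
lemma deriv_norm_eq {E E' : Type*} [NormedAddCommGroup E] [NormedSpace ℝ E]
    [NormedAddCommGroup E'] [NormedSpace ℝ E'] {c : ℝ → E} {d : ℝ → E'} {c' : E} {d' : E'}
    (hc0 : c 0 = 0) (hd0 : d 0 = 0) (h : ∀ t, ‖c t‖ = ‖d t‖) (hc : HasDerivAt c c' 0)
    (hd : HasDerivAt d d' 0) : ‖c'‖ = ‖d'‖ := by
  have h1 := (hasDerivAt_iff_tendsto_slope.1 hc).norm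
  have h2 := (hasDerivAt_iff_tendsto_slope.1 hd).norm
  have h3 : (fun t => ‖slope c 0 t‖) = fun t => ‖slope d 0 t‖ := by
    funext t
    simp only [slope_def_module, hc0, hd0, sub_zero, norm_smul, h t]
  rw [h3] at h1
  exact tendsto_nhds_unique h1 h2

omit S in
lemma smul_nonneg_gen (hF : HomIso F) {r : ℝ} (hr : 0 ≤ r) (x : X) : F (r • x) = r • F x := by
  rcases hr.lt_or_eq with h | h
  · exact hF.smul r h x
  · rw [← h, zero_smul, zero_smul, hF.map_zero]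

omit S in
/-- First order isometry identity, needing only first derivatives. -/
theorem I2_gen (hF : HomIso F) {x : X} (hFd : DifferentiableAt ℝ F x)
    (hnd : DifferentiableAt ℝ (norm : X → ℝ) x) (w : X) :
    ‖‖x‖ • fderiv ℝ F x w - fderiv ℝ norm x w • F x‖ = ‖‖x‖ • w - fderiv ℝ norm x w • x‖ := by
  have hline : HasDerivAt (fun t : ℝ => x + t • w) w 0 := by
    have h1 : HasDerivAt (fun t : ℝ => t • w) ((1 : ℝ) • w) 0 := (hasDerivAt_id (0 : ℝ)).smul_const w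
    simpa using h1.const_add x
  have hval : x = (fun t : ℝ => x + t • w) 0 := by simp
  have hF1 : HasDerivAt (fun t : ℝ => F (x + t • w)) (fderiv ℝ F x w) 0 :=
    hFd.hasFDerivAt.comp_hasDerivAt_of_eq (0 : ℝ) hline hval
  have hn1 : HasDerivAt (fun t : ℝ => ‖x + t • w‖) (fderiv ℝ norm x w) 0 :=
    hnd.hasFDerivAt.comp_hasDerivAt_of_eq (0 : ℝ) hline hval
  have hc : HasDerivAt (fun t : ℝ => ‖x‖ • F (x + t • w) - ‖x + t • w‖ • F x)
      (‖x‖ • fderiv ℝ F x w - fderiv ℝ norm x w • F x) 0 :=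
    (hF1.const_smul ‖x‖).sub (hn1.smul_const (F x))
  have hd : HasDerivAt (fun t : ℝ => ‖x‖ • (x + t • w) - ‖x + t • w‖ • x)
      (‖x‖ • w - fderiv ℝ norm x w • x) 0 :=
    (hline.const_smul ‖x‖).sub (hn1.smul_const x)
  refine deriv_norm_eq (by simp) (by simp) (fun t => ?_) hc hd
  have h1 : ‖‖x‖ • (x + t • w)‖ = ‖‖x + t • w‖ • x‖ := by
    rw [norm_smul, norm_smul, norm_norm, norm_norm, mul_comm]
  have h2 := hF.dist_same h1
  rw [smul_nonneg_gen hF (norm_nonneg x), smul_nonneg_gen hF (norm_nonneg _)] at h2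
  exact h2

omit S in
/-- Isometry on the tangent hyperplane, needing only first derivatives. -/
lemma DF_isometry_gen (hF : HomIso F) {p w : X} (hp : p ≠ 0) (hFd : DifferentiableAt ℝ F p)
    (hnd : DifferentiableAt ℝ (norm : X → ℝ) p) (hw : fderiv ℝ norm p w = 0) :
    ‖fderiv ℝ F p w‖ = ‖w‖ := by
  have h1 := I2_gen hF hFd hnd w
  rw [hw, zero_smul, zero_smul, sub_zero, sub_zero, norm_smul, norm_smul, norm_norm] at h1
  exact mul_left_cancel₀ (norm_ne_zero_iff.2 hp) h1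

theorem I2 {x : X} (hx : x ≠ 0) (w : X) :
    ‖‖x‖ • fderiv ℝ F x w - fderiv ℝ norm x w • F x‖ = ‖‖x‖ • w - fderiv ℝ norm x w • x‖ :=
  I2_gen S.hom (has1 (S.cd x hx)).differentiableAt (has1 (nAt S.X3 hx)).differentiableAt w

/-- Isometry on the tangent hyperplane. -/
lemma DF_isometry {p w : X} (hp : p ≠ 0) (hw : fderiv ℝ norm p w = 0) :
    ‖fderiv ℝ F p w‖ = ‖w‖ :=
  DF_isometry_gen S.hom hp (has1 (S.cd p hp)).differentiableAt
    (has1 (nAt S.X3 hp)).differentiableAt hw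

/-- Derivative of the isometry identity along the tangent hyperplane. -/
lemma I2_der {p w t : X} (hp : p ≠ 0) (hw : fderiv ℝ norm p w = 0) (hw0 : w ≠ 0)
    (ht : fderiv ℝ norm p t = 0) :
    fderiv ℝ norm (fderiv ℝ F p w) (fderiv ℝ F p t) = fderiv ℝ norm w t := by
  have hA0 : fderiv ℝ F p w ≠ 0 := by
    rw [← norm_ne_zero_iff, S.DF_isometry hp hw, norm_ne_zero_iff]
    exact hw0
  have hline : HasDerivAt (fun s : ℝ => w + s • t) t 0 := by
    have h1 : HasDerivAt (fun s : ℝ => s • t) ((1 : ℝ) • t) 0 := (hasDerivAt_id (0 : ℝ)).smul_const t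
    simpa using h1.const_add w
  have hline' : HasDerivAt (fun s : ℝ => fderiv ℝ F p (w + s • t)) (fderiv ℝ F p t) 0 :=
    (fderiv ℝ F p).hasFDerivAt.comp_hasDerivAt (0 : ℝ) hline
  have h1 := (has1 (nAt S.X3 hw0)).comp_hasDerivAt_of_eq (0 : ℝ) hline (by simp)
  have h2 := (has1 (nAt S.Y3 hA0)).comp_hasDerivAt_of_eq (0 : ℝ) hline' (by simp)
  have h3 : ((norm : Y → ℝ) ∘ fun s : ℝ => fderiv ℝ F p (w + s • t)) =
      (norm : X → ℝ) ∘ fun s : ℝ => w + s • t := by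
    funext s
    exact S.DF_isometry hp (by simp [hw, ht])
  rw [h3] at h2
  exact h2.unique h1

/-- Tangency of the second derivative. -/
theorem I3 {p v w : X} (hp : p ≠ 0) (hw : fderiv ℝ norm p w = 0) (hw0 : w ≠ 0)
    (hQ : fderiv ℝ (fderiv ℝ norm) p v w = 0) :
    fderiv ℝ norm (fderiv ℝ F p w) (fderiv ℝ (fderiv ℝ F) p v w) = 0 := by
  have hr : 0 < ‖p‖ := norm_pos_iff.2 hp
  have hnp := has1 (nAt S.X3 hp)
  have hDF := has1 (S.cd p hp)
  have hD2 := has2 (S.cd p hp)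
  have hDn := has2 (nAt S.X3 hp)
  have hN₁ : HasFDerivAt (fun x => ‖x‖ • fderiv ℝ F x w - fderiv ℝ norm x w • F x)
      ((‖p‖ • ((fderiv ℝ F p).comp (0 : X →L[ℝ] X) + (fderiv ℝ (fderiv ℝ F) p).flip w)
          + (fderiv ℝ norm p).smulRight (fderiv ℝ F p w))
        - (fderiv ℝ norm p w • fderiv ℝ F p
          + ((fderiv ℝ norm p).comp (0 : X →L[ℝ] X)
            + (fderiv ℝ (fderiv ℝ norm) p).flip w).smulRight (F p))) p :=
    (hnp.smul (hD2.clm_apply (hasFDerivAt_const w p))).sub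
      ((hDn.clm_apply (hasFDerivAt_const w p)).smul hDF)
  have hN₂ : HasFDerivAt (fun x => ‖x‖ • w - fderiv ℝ norm x w • x)
      ((fderiv ℝ norm p).smulRight w
        - (fderiv ℝ norm p w • ContinuousLinearMap.id ℝ X
          + ((fderiv ℝ norm p).comp (0 : X →L[ℝ] X)
            + (fderiv ℝ (fderiv ℝ norm) p).flip w).smulRight p)) p :=
    (hnp.smul_const w).sub ((hDn.clm_apply (hasFDerivAt_const w p)).smul (hasFDerivAt_id p))
  have hb₂ : ‖p‖ • w - fderiv ℝ norm p w • p = ‖p‖ • w := by rw [hw, zero_smul, sub_zero]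
  have hb₁ : ‖p‖ • fderiv ℝ F p w - fderiv ℝ norm p w • F p = ‖p‖ • fderiv ℝ F p w := by
    rw [hw, zero_smul, sub_zero]
  have hne₂ : ‖p‖ • w - fderiv ℝ norm p w • p ≠ 0 := by
    rw [hb₂]
    exact smul_ne_zero hr.ne' hw0
  have hne₁ : ‖p‖ • fderiv ℝ F p w - fderiv ℝ norm p w • F p ≠ 0 := by
    rw [← norm_ne_zero_iff, S.I2 hp w, norm_ne_zero_iff]
    exact hne₂
  have h1 := (has1 (nAt S.Y3 hne₁)).comp p hN₁
  have h2 := (has1 (nAt S.X3 hne₂)).comp p hN₂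
  have hev : ∀ᶠ x in 𝓝 p, x ≠ 0 := isOpen_compl_singleton.mem_nhds hp
  have h3 : ((norm : Y → ℝ) ∘ fun x => ‖x‖ • fderiv ℝ F x w - fderiv ℝ norm x w • F x) =ᶠ[𝓝 p]
      ((norm : X → ℝ) ∘ fun x => ‖x‖ • w - fderiv ℝ norm x w • x) := by
    filter_upwards [hev] with x hx
    exact S.I2 hx w
  have h4 := (h1.congr_of_eventuallyEq h3.symm).unique h2
  have h5 := congrArg (fun T => T v) h4
  have hA0 : fderiv ℝ F p w ≠ 0 := by
    rw [← norm_ne_zero_iff, S.DF_isometry hp hw, norm_ne_zero_iff]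
    exact hw0
  simp only [ContinuousLinearMap.comp_apply, sub_apply, add_apply, smul_apply,
    ContinuousLinearMap.flip_apply, ContinuousLinearMap.smulRight_apply, zero_apply, map_zero,
    hw, hQ, zero_smul, add_zero, zero_add, sub_zero,
    map_add, map_smul, smul_eq_mul, D1_smul hr, D1_self S.Y3 hA0, D1_self S.X3 hw0,
    S.DF_isometry hp hw] at h5
  have h6 := add_right_cancel (a := ‖p‖ * _) (b := fderiv ℝ norm p v * ‖w‖) (c := 0) (by
    rw [zero_add]; exact h5)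
  rcases mul_eq_zero.1 h6 with h7 | h7
  · exact absurd h7 hr.ne'
  · exact h7

/-- `F` is tangent to the level sets to second order. -/
theorem I5 {p : X} (hp : p ≠ 0) (v w : X) :
    fderiv ℝ norm (F p) (fderiv ℝ (fderiv ℝ F) p v w) = 0 := by
  have hF₀ := S.F_ne hp
  have hDF := has1 (S.cd p hp)
  have hD2 := has2 (S.cd p hp)
  have h1 := ((has2 (nAt S.Y3 hF₀)).comp p hDF).clm_apply (hD2.clm_apply (hasFDerivAt_const w p))
  have h2 := (has2 (nAt S.X3 hp)).clm_apply (hasFDerivAt_const w p)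
  have hev : ∀ᶠ x in 𝓝 p, x ≠ 0 := isOpen_compl_singleton.mem_nhds hp
  have h3 : (fun x => (fderiv ℝ (norm : Y → ℝ) ∘ F) x (fderiv ℝ F x w)) =ᶠ[𝓝 p]
      fun x => fderiv ℝ (norm : X → ℝ) x w := by
    filter_upwards [hev] with x hx
    exact S.I0 hx w
  have h4 := (h1.congr_of_eventuallyEq h3.symm).unique h2
  have h5 := congrArg (fun T => T v) h4
  simp only [ContinuousLinearMap.comp_apply, add_apply, ContinuousLinearMap.flip_apply,
    Function.comp_apply, zero_apply, map_zero, zero_add, S.I1 hp] at h5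
  exact add_eq_right.1 h5

set_option maxSynthPendingDepth 3 in
/-- Total symmetry of `Z`, without any third derivative of the norms. -/
theorem Zsym {p : X} (hp : p ≠ 0) (a b c : X) :
    fderiv ℝ (fderiv ℝ norm) (F p) (fderiv ℝ (fderiv ℝ F) p a b) (fderiv ℝ F p c) =
      fderiv ℝ (fderiv ℝ norm) (F p) (fderiv ℝ (fderiv ℝ F) p a c) (fderiv ℝ F p b) := by
  have hF₀ := S.F_ne hp
  have hDF := has1 (S.cd p hp)
  set φ : Y →L[ℝ] ℝ := fderiv ℝ norm (F p) with hφ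
  set Z : X → X → X → ℝ := fun a b c =>
    fderiv ℝ (fderiv ℝ norm) (F p) (fderiv ℝ (fderiv ℝ F) p a b) (fderiv ℝ F p c) with hZ
  -- the scalar functions `φ ∘ F`
  set f : X → (X →L[ℝ] ℝ) := fun x => φ.comp (fderiv ℝ F x) with hf
  set C₁ := ContinuousLinearMap.compL ℝ X Y ℝ with hC₁
  set R : X → ((Y →L[ℝ] ℝ) →L[ℝ] X →L[ℝ] X →L[ℝ] ℝ) :=
    fun x => (C₁.flip.comp (fderiv ℝ (fderiv ℝ F) x)).flip with hR
  have hRapp : ∀ (x : X) (u : Y →L[ℝ] ℝ) (z v : X), R x u z v = u (fderiv ℝ (fderiv ℝ F) x z v) :=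
    fun x u z v => rfl
  have hev : ∀ᶠ x in 𝓝 p, x ≠ 0 := isOpen_compl_singleton.mem_nhds hp
  have h1 : ∀ᶠ y in 𝓝 p, HasFDerivAt f (R y φ) y := by
    filter_upwards [hev] with y hy
    exact (C₁ φ).hasFDerivAt.comp y (has2 (S.cd y hy))
  -- the difference of functionals
  set u : X → (Y →L[ℝ] ℝ) := fun x => φ - fderiv ℝ norm (F x) with hu
  have hu0 : u p = 0 := by simp [hu, hφ]
  have hud : HasFDerivAt u (-(fderiv ℝ (fderiv ℝ norm) (F p)).comp (fderiv ℝ F p)) p := by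
    have h2 := (has2 (nAt S.Y3 hF₀)).comp p hDF
    have h3 := h2.const_sub φ
    simpa [hu] using h3
  have hw : ContinuousAt (fderiv ℝ (fderiv ℝ F)) p := cont2 (S.cd p hp)
  have hRc : ContinuousAt R p := by
    have h2 : ContinuousAt (fun x => C₁.flip.comp (fderiv ℝ (fderiv ℝ F) x)) p :=
      continuousAt_const.clm_comp hw
    exact (ContinuousLinearMap.flipₗᵢ ℝ X (Y →L[ℝ] ℝ) (X →L[ℝ] ℝ)).continuous.continuousAt.comp h2
  have h2 := hasFDerivAt_clm_of_zero hud hu0 hRc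
  have h3 : (fun x => R x (u x)) =ᶠ[𝓝 p] fun x => R x φ := by
    filter_upwards [hev] with x hx
    ext z v
    simp only [hRapp, hu, sub_apply, S.I5 hx z v, sub_zero]
  have h4 := h2.congr_of_eventuallyEq h3.symm
  have h5 := second_derivative_symmetric_of_eventually h1 h4
  have hT : ∀ w z v, ((R p).comp
      (-(fderiv ℝ (fderiv ℝ norm) (F p)).comp (fderiv ℝ F p))) w z v = -Z z v w := by
    intro w z v
    simp only [hZ, ContinuousLinearMap.comp_apply, hRapp,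
      neg_apply, map_neg]
    rw [symm2 (nAt S.Y3 hF₀)]
  have hZ13 : ∀ z v w, Z z v w = Z w v z := by
    intro z v w
    have h6 := congrArg (fun T : X →L[ℝ] ℝ => T v) (h5 w z)
    simp only [hT] at h6
    linarith
  have hZ12 : ∀ a b c, Z a b c = Z b a c := by
    intro a b c
    simp only [hZ]
    rw [symm2 (S.cd p hp) a b]
  calc Z a b c = Z b a c := hZ12 a b c
    _ = Z c a b := hZ13 b a c
    _ = Z a c b := hZ12 c a b

end Setup

end Vale.Agent.Lib.P084T
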