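import Vale.Agent.Lib.P084T.LemmaA
import Vale.Agent.Lib.P084T.Rel

/-!
Assembly: the second derivative of the homogeneous extension vanishes, so the extension is linear.
-/

open Module Filter Topology

namespace Vale.Agent.Lib.P084T

variable {X Y : Type*} [NormedAddCommGroup X] [NormedSpace ℝ X]
  [NormedAddCommGroup Y] [NormedSpace ℝ Y]

namespace Setup

variable {F : X → Y} (S : Setup F)

include S

/-- At a point of positive curvature the second derivative of `F` vanishes. -/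
theorem D2F_zero_of_pd [FiniteDimensional ℝ X] (hdim : 3 ≤ finrank ℝ X) {p : X} (hp : p ≠ 0)
    (hPD : ∀ h : X, fderiv ℝ norm p h = 0 → h ≠ 0 → 0 < fderiv ℝ (fderiv ℝ norm) p h h)
    (A' : Y →L[ℝ] X) (h1 : ∀ y, fderiv ℝ F p (A' y) = y) :
    fderiv ℝ (fderiv ℝ F) p = 0 := by
  set T : Submodule ℝ X := LinearMap.ker (fderiv ℝ (norm : X → ℝ) p : X →ₗ[ℝ] ℝ) with hT
  have hmemT : ∀ t, t ∈ T ↔ fderiv ℝ (norm : X → ℝ) p t = 0 := by
    intro t
    simp [hT, LinearMap.mem_ker]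
  have hrank : 2 ≤ finrank ℝ T := by
    have h2 := LinearMap.finrank_range_add_finrank_ker (fderiv ℝ (norm : X → ℝ) p : X →ₗ[ℝ] ℝ)
    have h3 : finrank ℝ (LinearMap.range (fderiv ℝ (norm : X → ℝ) p : X →ₗ[ℝ] ℝ)) ≤ 1 := by
      simpa using Submodule.finrank_le (LinearMap.range (fderiv ℝ (norm : X → ℝ) p : X →ₗ[ℝ] ℝ))
    rw [← hT] at h2
    omega
  set Q := fderiv ℝ (fderiv ℝ (norm : X → ℝ)) p with hQ
  set B : X →L[ℝ] X →L[ℝ] X :=
    (ContinuousLinearMap.compL ℝ X Y X A').comp (fderiv ℝ (fderiv ℝ F) p) with hB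
  have hBapp : ∀ a b, B a b = A' (fderiv ℝ (fderiv ℝ F) p a b) := fun a b => rfl
  have hBT : ∀ a b, B a b ∈ T := by
    intro a b
    rw [hmemT, hBapp, ← S.I0 hp, h1]
    exact S.I5 hp a b
  have hQB : ∀ a b c, Q (B a b) c =
      fderiv ℝ (fderiv ℝ norm) (F p) (fderiv ℝ (fderiv ℝ F) p a b) (fderiv ℝ F p c) := by
    intro a b c
    rw [hQ, ← S.I1 hp, hBapp, h1]
  have hAlg : Alg T Q B := by
    refine ⟨fun a _ b _ => symm2 (nAt S.X3 hp) a b, fun a ha ha0 => hPD a ((hmemT a).1 ha) ha0,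
      fun a _ b _ => hBT a b, fun a _ b _ => ?_, fun a _ b _ c _ => ?_⟩
    · rw [hBapp, hBapp, symm2 (S.cd p hp) a b]
    · rw [hQB, hQB]
      exact S.Zsym hp a b c
  have hzero := lemmaA hAlg hrank (S.X3.of_le (by norm_num)) (by
    intro v _ w hw hw0 hQ0
    have hwT := (hmemT w).1 hw
    have h2 := S.I2_der hp hwT hw0 ((hmemT _).1 (hBT v w))
    rw [← h2, hBapp, h1]
    exact S.I3 hp hwT hw0 hQ0)
  have hzero' : ∀ a ∈ T, ∀ b ∈ T, fderiv ℝ (fderiv ℝ F) p a b = 0 := by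
    intro a ha b hb
    have h2 := hzero a ha b hb
    rw [hBapp] at h2
    rw [← h1 (fderiv ℝ (fderiv ℝ F) p a b), h2, map_zero]
  have hr : ‖p‖ ≠ 0 := norm_ne_zero_iff.2 hp
  have hproj : ∀ a : X, a - (fderiv ℝ norm p a / ‖p‖) • p ∈ T := by
    intro a
    rw [hmemT, map_sub, map_smul, D1_self S.X3 hp, smul_eq_mul, div_mul_cancel₀ _ hr, sub_self]
  ext a b
  have hdec : ∀ a : X, a = (a - (fderiv ℝ norm p a / ‖p‖) • p) + (fderiv ℝ norm p a / ‖p‖) • p :=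
    fun a => by abel
  rw [hdec a, hdec b]
  simp only [map_add, map_smul, S.D2F_self hp, S.D2F_self' hp,
    hzero' _ (hproj a) _ (hproj b), zero_apply, smul_zero, add_zero]

/-- The conclusion in terms of `F`. -/
theorem linear_of_dense [FiniteDimensional ℝ X] (hdim : 3 ≤ finrank ℝ X)
    (hdense : Dense {p : X | ∀ h : X, fderiv ℝ norm p h = 0 → h ≠ 0 →
      0 < fderiv ℝ (fderiv ℝ norm) p h h})
    (hinv : ∀ p : X, p ≠ 0 → ∃ A' : Y →L[ℝ] X, ∀ y, fderiv ℝ F p (A' y) = y)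
    (hsurj : ∀ y : Y, ‖y‖ = 1 → ∃ x : X, ‖x‖ = 1 ∧ F x = y) :
    ∃ T : X ≃ₗᵢ[ℝ] Y, ∀ x, T x = F x := by
  -- the second derivative vanishes
  have hD2 : ∀ x : X, x ≠ 0 → fderiv ℝ (fderiv ℝ F) x = 0 := by
    intro x hx
    by_contra hne
    have hc : ContinuousAt (fderiv ℝ (fderiv ℝ F)) x := cont2 (S.cd x hx)
    have h1 : ∀ᶠ y in 𝓝 x, fderiv ℝ (fderiv ℝ F) y ≠ 0 := hc.eventually_ne hne
    have h2 : ∀ᶠ y in 𝓝 x, y ≠ 0 := isOpen_compl_singleton.mem_nhds hx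
    have h3 := mem_closure_iff_frequently.1 (hdense x)
    obtain ⟨y, hy, hy1, hy2⟩ := (h3.and_eventually (h1.and h2)).exists
    obtain ⟨A', hA'⟩ := hinv y hy2
    exact hy1 (S.D2F_zero_of_pd hdim hy2 hy A' hA')
  have hrank : 1 < Module.rank ℝ X := one_lt_rank_of_one_lt_finrank (by omega)
  have hconn : IsPreconnected ({0}ᶜ : Set X) :=
    (isConnected_compl_singleton_of_one_lt_rank hrank 0).isPreconnected
  have hdiff : DifferentiableOn ℝ (fderiv ℝ F) {0}ᶜ := fun x hx =>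
    (has2 (S.cd x hx)).differentiableAt.differentiableWithinAt
  have hconst : ∀ x y : X, x ≠ 0 → y ≠ 0 → fderiv ℝ F x = fderiv ℝ F y := by
    intro x y hx hy
    exact isOpen_compl_singleton.is_const_of_fderiv_eq_zero hconn hdiff
      (fun z hz => by simpa using hD2 z hz) hx hy
  -- nonzero vector
  have hnt : Nontrivial X := by
    apply Module.nontrivial_of_finrank_pos (R := ℝ)
    omega
  obtain ⟨x₁, hx₁⟩ := exists_ne (0 : X)
  set A₀ := fderiv ℝ F x₁ with hA₀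
  have hFlin : ∀ x, F x = A₀ x := by
    intro x
    by_cases hx : x = 0
    · simp [hx, S.hom.map_zero]
    · rw [← S.euler_F hx, hconst x x₁ hx hx₁]
  have hnorm : ∀ x, ‖A₀ x‖ = ‖x‖ := by
    intro x
    rw [← hFlin, S.hom.norm_eq]
  let L : X →ₗᵢ[ℝ] Y := ⟨A₀.toLinearMap, hnorm⟩
  have hLsurj : Function.Surjective L := by
    intro y
    by_cases hy : y = 0
    · exact ⟨0, by simp [hy]⟩
    · have hr : 0 < ‖y‖ := norm_pos_iff.2 hy
      obtain ⟨x, -, hx2⟩ := hsurj (‖y‖⁻¹ • y) (by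
        rw [norm_smul, norm_inv, norm_norm, inv_mul_cancel₀ hr.ne'])
      refine ⟨‖y‖ • x, ?_⟩
      show A₀ (‖y‖ • x) = y
      rw [map_smul, ← hFlin, hx2, smul_smul, mul_inv_cancel₀ hr.ne', one_smul]
  refine ⟨LinearIsometryEquiv.ofSurjective L hLsurj, fun x => ?_⟩
  rw [LinearIsometryEquiv.coe_ofSurjective]
  exact (hFlin x).symm

end Setup

/-- Oddness, from strict convexity. -/
lemma odd_of_strict [StrictConvexSpace ℝ X] {F : X → Y} {G : Y → X} (hF : HomIso F) (hG : HomIso G)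
    (hFG : ∀ y, F (G y) = y) (x : X) : F (-x) = -F x := by
  by_cases hx : x = 0
  · simp [hx, hF.map_zero]
  have hunit : ∀ p : X, ‖p‖ = 1 → F (-p) = -F p := by
    intro p hp
    set z := G (-F p) with hz
    have hz1 : ‖z‖ = 1 := by rw [hz, hG.norm_eq, norm_neg, hF.norm_eq, hp]
    have hFz : F z = -F p := hFG _
    have h1 := hF.dist z p hz1 hp
    rw [hFz, neg_sub_left, norm_neg, ← two_smul ℝ (F p), norm_smul, hF.norm_eq, hp] at h1
    have h2 : ‖z + -p‖ = ‖z‖ + ‖-p‖ := by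
      rw [norm_neg, hz1, hp, ← sub_eq_add_neg, ← h1]
      norm_num
    have h3 := sameRay_iff_norm_smul_eq.1 (sameRay_iff_norm_add.2 h2)
    rw [hz1, norm_neg, hp, one_smul, one_smul] at h3
    rw [h3, hFz]
  have hr : 0 < ‖x‖ := norm_pos_iff.2 hx
  have hp : ‖‖x‖⁻¹ • x‖ = 1 := by
    rw [norm_smul, norm_inv, norm_norm, inv_mul_cancel₀ hr.ne']
  have hxdec : x = ‖x‖ • (‖x‖⁻¹ • x) := by
    rw [smul_smul, mul_inv_cancel₀ hr.ne', one_smul]
  calc F (-x) = F (‖x‖ • (-(‖x‖⁻¹ • x))) := by rw [smul_neg, ← hxdec]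
    _ = ‖x‖ • F (-(‖x‖⁻¹ • x)) := hF.smul _ hr _
    _ = ‖x‖ • (-F (‖x‖⁻¹ • x)) := by rw [hunit _ hp]
    _ = -(‖x‖ • F (‖x‖⁻¹ • x)) := by rw [smul_neg]
    _ = -F x := by rw [← hF.decomp hx]

/-- The main theorem for homogeneous extensions. -/
theorem main_hom [FiniteDimensional ℝ X] [FiniteDimensional ℝ Y] [StrictConvexSpace ℝ X]
    (hdim : 3 ≤ finrank ℝ X)
    (hX : ContDiffOn ℝ 2 (norm : X → ℝ) {0}ᶜ) (hY : ContDiffOn ℝ 2 (norm : Y → ℝ) {0}ᶜ)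
    (hdense : Dense {p : X | ∀ h : X, fderiv ℝ norm p h = 0 → h ≠ 0 →
      0 < fderiv ℝ (fderiv ℝ norm) p h h})
    {F : X → Y} {G : Y → X} (hF : HomIso F) (hG : HomIso G)
    (hGF : ∀ x, G (F x) = x) (hFG : ∀ y, F (G y) = y) :
    ∃ T : X ≃ₗᵢ[ℝ] Y, ∀ x, T x = F x := by
  have hsurjF : ∀ y : Y, ‖y‖ = 1 → ∃ x : X, ‖x‖ = 1 ∧ F x = y := fun y hy =>
    ⟨G y, by rw [hG.norm_eq, hy], hFG y⟩
  have hsurjG : ∀ x : X, ‖x‖ = 1 → ∃ y : Y, ‖y‖ = 1 ∧ G y = x := fun x hx =>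
    ⟨F x, by rw [hF.norm_eq, hx], hGF x⟩
  have hcF : ∀ x : X, x ≠ 0 → ContDiffAt ℝ 2 F x := fun x hx =>
    hF.contDiffAt hsurjF (by norm_num) hX hY hx
  have hcG : ∀ y : Y, y ≠ 0 → ContDiffAt ℝ 2 G y := fun y hy =>
    hG.contDiffAt hsurjG (by norm_num) hY hX hy
  have S : Setup F := ⟨hF, odd_of_strict hF hG hFG, hX, hY, hcF⟩
  refine S.linear_of_dense hdim hdense (fun p hp => ?_) hsurjF
  have hy : F p ≠ 0 := S.F_ne hp
  refine ⟨fderiv ℝ G (F p), fun y => ?_⟩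
  -- `F ∘ G = id` at `F p`
  have h1 : DifferentiableAt ℝ F (G (F p)) := by
    rw [hGF]
    exact (has1 (hcF p hp)).differentiableAt
  have h2 := h1.hasFDerivAt.comp (F p) (has1 (hcG _ hy))
  have h3 : (F ∘ G) = id := funext hFG
  rw [h3, hGF] at h2
  have h4 := h2.unique (hasFDerivAt_id (F p))
  have h5 := congrArg (fun T => T y) h4
  simpa using h5

end Vale.Agent.Lib.P084T
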