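import Mathlib

/-!
A regularity lemma: a `C^1` function whose second derivatives along lines exist and depend
continuously on the point and on the direction is `C^2`.
-/

open Filter Topology

namespace Vale.Agent.Lib.P084T

section oneDim

/-- Mean value theorem for second differences. -/
lemma second_diff {φ φ' φ'' : ℝ → ℝ} {s : ℝ} (hs : 0 < s)
    (h1 : ∀ t ∈ Set.Icc (-s) s, HasDerivAt φ (φ' t) t)
    (h2 : ∀ t ∈ Set.Icc (-s) s, HasDerivAt φ' (φ'' t) t) :
    ∃ ξ ∈ Set.Icc (-s) s, φ s + φ (-s) - 2 * φ 0 = s ^ (2 : ℕ) * φ'' ξ := by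
  set D := φ s + φ (-s) - 2 * φ 0 with hD
  set ψ : ℝ → ℝ := fun t => φ t + φ (-t) - 2 * φ 0 - t ^ (2 : ℕ) / s ^ (2 : ℕ) * D with hψ
  have hs2 : s ^ (2 : ℕ) ≠ 0 := by positivity
  have hψ' : ∀ t ∈ Set.Icc 0 s, HasDerivAt ψ (φ' t - φ' (-t) - 2 * t / s ^ (2 : ℕ) * D) t := by
    intro t ht
    have ht1 : t ∈ Set.Icc (-s) s := ⟨by linarith [ht.1], ht.2⟩
    have ht2 : -t ∈ Set.Icc (-s) s := ⟨by linarith [ht.2], by linarith [ht.1]⟩
    have h3 : HasDerivAt (fun t => φ (-t)) (φ' (-t) * (-1)) t :=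
      HasDerivAt.comp (h₂ := φ) (h := fun t => -t) (h' := -1) t (h1 _ ht2) (hasDerivAt_neg t)
    have h4 : HasDerivAt (fun t : ℝ => t ^ (2 : ℕ) / s ^ (2 : ℕ) * D) (2 * t / s ^ (2 : ℕ) * D) t := by
      have h5 := ((hasDerivAt_pow 2 t).div_const (s ^ (2 : ℕ))).mul_const D
      refine h5.congr_deriv ?_
      norm_num
    have h6 := (((h1 t ht1).fun_add h3).sub_const (2 * φ 0)).fun_sub h4
    refine h6.congr_deriv ?_
    ring
  have hψc : ContinuousOn ψ (Set.Icc 0 s) := fun t ht => (hψ' t ht).continuousAt.continuousWithinAt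
  have hψ0 : ψ 0 = ψ s := by
    simp only [hψ, neg_zero]
    rw [div_self hs2]
    simp only [ne_eq, OfNat.ofNat_ne_zero, not_false_eq_true, zero_pow, zero_div, zero_mul, sub_zero]
    rw [hD]
    ring
  obtain ⟨t₁, ht₁, hzero⟩ := exists_hasDerivAt_eq_zero hs hψc hψ0 fun t ht =>
    hψ' t ⟨ht.1.le, ht.2.le⟩
  have ht₁0 : 0 < t₁ := ht₁.1
  have hsub : Set.Icc (-t₁) t₁ ⊆ Set.Icc (-s) s := Set.Icc_subset_Icc (by linarith [ht₁.2]) ht₁.2.le
  obtain ⟨ξ, hξ, hslope⟩ := exists_hasDerivAt_eq_slope φ' φ'' (show -t₁ < t₁ by linarith)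
    (fun t ht => (h2 t (hsub ht)).continuousAt.continuousWithinAt)
    (fun t ht => h2 t (hsub ⟨ht.1.le, ht.2.le⟩))
  refine ⟨ξ, hsub ⟨hξ.1.le, hξ.2.le⟩, ?_⟩
  rw [hslope]
  have h7 : φ' t₁ - φ' (-t₁) = 2 * t₁ / s ^ (2 : ℕ) * D := by linarith
  rw [h7]
  have h8 : t₁ - -t₁ ≠ 0 := by
    have : t₁ - -t₁ = 2 * t₁ := by ring
    rw [this]
    positivity
  field_simp
  ring

/-- Second order Taylor formula with Lagrange remainder on `[0, 1]`. -/
lemma taylor2 {φ φ' φ'' : ℝ → ℝ}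
    (h1 : ∀ t ∈ Set.Icc (0 : ℝ) 1, HasDerivAt φ (φ' t) t)
    (h2 : ∀ t ∈ Set.Icc (0 : ℝ) 1, HasDerivAt φ' (φ'' t) t) :
    ∃ ξ ∈ Set.Icc (0 : ℝ) 1, φ 1 = φ 0 + φ' 0 + φ'' ξ / 2 := by
  set K := φ 1 - φ 0 - φ' 0 with hK
  set ψ : ℝ → ℝ := fun t => φ t - φ 0 - t * φ' 0 - t ^ (2 : ℕ) * K with hψ
  have hψ' : ∀ t ∈ Set.Icc (0 : ℝ) 1, HasDerivAt ψ (φ' t - φ' 0 - 2 * t * K) t := by
    intro t ht
    have h3 : HasDerivAt (fun t : ℝ => t * φ' 0) (φ' 0) t := by
      simpa using (hasDerivAt_id t).mul_const (φ' 0)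
    have h4 : HasDerivAt (fun t : ℝ => t ^ (2 : ℕ) * K) (2 * t * K) t := by
      simpa using (hasDerivAt_pow 2 t).mul_const K
    exact (((h1 t ht).sub_const (φ 0)).fun_sub h3).fun_sub h4
  have hψc : ContinuousOn ψ (Set.Icc 0 1) := fun t ht => (hψ' t ht).continuousAt.continuousWithinAt
  have hψ0 : ψ 0 = ψ 1 := by
    simp only [hψ, hK]
    ring
  obtain ⟨t₁, ht₁, hzero⟩ := exists_hasDerivAt_eq_zero zero_lt_one hψc hψ0 fun t ht =>
    hψ' t ⟨ht.1.le, ht.2.le⟩
  have ht₁0 : 0 < t₁ := ht₁.1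
  have hsub : Set.Icc 0 t₁ ⊆ Set.Icc (0 : ℝ) 1 := Set.Icc_subset_Icc le_rfl ht₁.2.le
  obtain ⟨ξ, hξ, hslope⟩ := exists_hasDerivAt_eq_slope φ' φ'' ht₁0
    (fun t ht => (h2 t (hsub ht)).continuousAt.continuousWithinAt)
    (fun t ht => h2 t (hsub ⟨ht.1.le, ht.2.le⟩))
  refine ⟨ξ, hsub ⟨hξ.1.le, hξ.2.le⟩, ?_⟩
  rw [hslope]
  have h7 : φ' t₁ - φ' 0 = 2 * t₁ * K := by linarith
  rw [h7, sub_zero, hK]
  field_simp
  ring

end oneDim

section polarization

variable {V : Type*} [NormedAddCommGroup V] [NormedSpace ℝ V]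

/-- Jordan-von Neumann: a continuous function satisfying the parallelogram law is a
quadratic form. -/
lemma exists_bilin [FiniteDimensional ℝ V] {q : V → ℝ} (hc : Continuous q)
    (hP : ∀ a b, q (a + b) + q (a - b) = 2 * q a + 2 * q b) :
    ∃ Q : V →L[ℝ] V →L[ℝ] ℝ, ∀ a b, Q a b = (q (a + b) - q (a - b)) / 4 := by
  have h0 : q 0 = 0 := by
    have := hP 0 0
    simp only [add_zero, sub_zero] at this
    linarith
  have heven : ∀ a, q (-a) = q a := by
    intro a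
    have := hP 0 a
    simp only [zero_add, zero_sub, h0] at this
    linarith
  set P : V → V → ℝ := fun a b => (q (a + b) - q (a - b)) / 4 with hPdef
  have hsymm : ∀ a b, P a b = P b a := by
    intro a b
    simp only [hPdef]
    rw [add_comm a b, ← neg_sub b a, heven]
  have hneg : ∀ a b, P (-a) b = -P a b := by
    intro a b
    simp only [hPdef]
    rw [show -a + b = -(a - b) by abel, show -a - b = -(a + b) by abel, heven, heven]
    ring
  have hadd : ∀ a a' b, P (a + a') b = P a b + P a' b := by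
    intro a a' b
    have e1 := hP (a + b) a'
    have e2 := hP (a - b) a'
    have e3 := hP (a' + b) a
    have e4 := hP (a' - b) a
    rw [show a + b + a' = a + a' + b by abel, show a + b - a' = a - a' + b by abel] at e1
    rw [show a - b + a' = a + a' - b by abel, show a - b - a' = a - a' - b by abel] at e2
    rw [show a' + b + a = a + a' + b by abel, show a' + b - a = a' - a + b by abel] at e3
    rw [show a' - b + a = a + a' - b by abel, show a' - b - a = a' - a - b by abel] at e4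
    have e5 : q (a' - a + b) = q (a - a' - b) := by
      rw [← heven]
      congr 1
      abel
    have e6 : q (a' - a - b) = q (a - a' + b) := by
      rw [← heven]
      congr 1
      abel
    rw [e5] at e3
    rw [e6] at e4
    simp only [hPdef]
    linarith
  have hcont1 : ∀ b, Continuous fun a => P a b := by
    intro b
    simp only [hPdef]
    fun_prop
  have hsmul1 : ∀ (c : ℝ) (a b : V), P (c • a) b = c * P a b := by
    intro c a b
    let f : V →+ ℝ := AddMonoidHom.mk' (fun a => P a b) (fun x y => hadd x y b)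
    have hf : Continuous f := hcont1 b
    exact map_real_smul f hf c a
  let B₀ : V →ₗ[ℝ] V →ₗ[ℝ] ℝ := LinearMap.mk₂ ℝ P hadd
    (fun c a b => by simpa using hsmul1 c a b)
    (fun a b b' => by rw [hsymm, hadd, hsymm b a, hsymm b' a])
    (fun c a b => by
      rw [hsymm, hsmul1, hsymm b a]
      simp)
  let Q₁ : V →ₗ[ℝ] V →L[ℝ] ℝ := (LinearMap.toContinuousLinearMap :
    (V →ₗ[ℝ] ℝ) ≃ₗ[ℝ] V →L[ℝ] ℝ).toLinearMap ∘ₗ B₀
  refine ⟨LinearMap.toContinuousLinearMap Q₁, fun a b => ?_⟩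
  rfl

end polarization

section main

variable {V : Type*} [NormedAddCommGroup V] [NormedSpace ℝ V]

/-- Hypotheses of the regularity lemma. -/
structure LineData (f : V → ℝ) (q : V → V → ℝ) (Ω : Set V) : Prop where
  op : IsOpen Ω
  cd : ContDiffOn ℝ 1 f Ω
  qc : ContinuousOn (fun z : V × V => q z.1 z.2) (Ω ×ˢ Set.univ)
  line : ∀ y ∈ Ω, ∀ h, HasDerivAt (fun t : ℝ => fderiv ℝ f (y + t • h) h) (q y h) 0

namespace LineData

variable {f : V → ℝ} {q : V → V → ℝ} {Ω : Set V} (L : LineData f q Ω)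

include L

lemma hasF {y : V} (hy : y ∈ Ω) : HasFDerivAt f (fderiv ℝ f y) y :=
  ((L.cd.contDiffAt (L.op.mem_nhds hy)).differentiableAt (by norm_num)).hasFDerivAt

omit L in
lemma line_deriv (y h : V) (t : ℝ) : HasDerivAt (fun t : ℝ => y + t • h) h t := by
  have h1 : HasDerivAt (fun t : ℝ => t • h) ((1 : ℝ) • h) t := (hasDerivAt_id t).smul_const h
  have h2 : HasDerivAt (fun t : ℝ => y + t • h) ((1 : ℝ) • h) t := h1.const_add y
  rwa [one_smul] at h2

lemma lineφ {y h : V} {t : ℝ} (ht : y + t • h ∈ Ω) :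
    HasDerivAt (fun t : ℝ => f (y + t • h)) (fderiv ℝ f (y + t • h) h) t :=
  (L.hasF ht).comp_hasDerivAt t (line_deriv y h t)

lemma lineφ' {y h : V} {t : ℝ} (ht : y + t • h ∈ Ω) :
    HasDerivAt (fun t : ℝ => fderiv ℝ f (y + t • h) h) (q (y + t • h) h) t := by
  have h1 := L.line _ ht h
  have h2 : HasDerivAt (fun s : ℝ => fderiv ℝ f (y + t • h + s • h) h) (q (y + t • h) h) (t - t) := by
    rw [sub_self]
    exact h1
  have h3 := h2.comp_sub_const t t
  refine h3.congr_of_eventuallyEq (Eventually.of_forall fun s => ?_)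
  simp only
  congr 2
  rw [add_assoc, ← add_smul]
  congr 2
  ring

lemma sec {y h : V} {s : ℝ} (hs : 0 < s) (hin : ∀ t ∈ Set.Icc (-s) s, y + t • h ∈ Ω) :
    ∃ ξ ∈ Set.Icc (-s) s, f (y + s • h) + f (y + (-s) • h) - 2 * f y =
      s ^ (2 : ℕ) * q (y + ξ • h) h := by
  obtain ⟨ξ, hξ, he⟩ := second_diff (φ := fun t => f (y + t • h))
    (φ' := fun t => fderiv ℝ f (y + t • h) h) (φ'' := fun t => q (y + t • h) h) hs
    (fun t ht => L.lineφ (hin t ht)) (fun t ht => L.lineφ' (hin t ht))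
  refine ⟨ξ, hξ, ?_⟩
  simpa using he

lemma tay {y k : V} (hin : ∀ t ∈ Set.Icc (0 : ℝ) 1, y + t • k ∈ Ω) :
    ∃ ξ ∈ Set.Icc (0 : ℝ) 1, f (y + k) = f y + fderiv ℝ f y k + q (y + ξ • k) k / 2 := by
  obtain ⟨ξ, hξ, he⟩ := taylor2 (φ := fun t => f (y + t • k))
    (φ' := fun t => fderiv ℝ f (y + t • k) k) (φ'' := fun t => q (y + t • k) k)
    (fun t ht => L.lineφ (hin t ht)) (fun t ht => L.lineφ' (hin t ht))
  refine ⟨ξ, hξ, ?_⟩
  simpa using he

lemma qcAt {y : V} (hy : y ∈ Ω) (v : V) :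
    ContinuousAt (fun z : V × V => q z.1 z.2) (y, v) :=
  L.qc.continuousAt ((L.op.prod isOpen_univ).mem_nhds ⟨hy, Set.mem_univ _⟩)

lemma qcont_pt {y : V} (hy : y ∈ Ω) (v : V) : ContinuousAt (fun w => q w v) y := by
  have h1 : ContinuousAt (fun w : V => (w, v)) y := by fun_prop
  exact ContinuousAt.comp_of_eq (L.qcAt hy v) h1 rfl

lemma qcont_dir {y : V} (hy : y ∈ Ω) : Continuous (fun v => q y v) := by
  rw [continuous_iff_continuousAt]
  intro v
  have h1 : ContinuousAt (fun v : V => (y, v)) v := by fun_prop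
  exact ContinuousAt.comp_of_eq (g := fun z : V × V => q z.1 z.2) (f := fun v : V => (y, v))
    (L.qcAt hy v) h1 rfl

/-- Parallelogram law for the second derivative along lines. -/
lemma par {y : V} (hy : y ∈ Ω) (h k : V) :
    q y (h + k) + q y (h - k) = 2 * q y h + 2 * q y k := by
  have key : ∀ ε : ℝ, 0 < ε → |q y (h + k) + q y (h - k) - 2 * q y h - 2 * q y k| ≤ 6 * ε := by
    intro ε hε
    have hev : ∀ᶠ w in 𝓝 y, w ∈ Ω ∧ |q w (h + k) - q y (h + k)| < ε ∧ |q w (h - k) - q y (h - k)| < ε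
        ∧ |q w h - q y h| < ε ∧ |q w k - q y k| < ε := by
      have hbd : ∀ v, ∀ᶠ w in 𝓝 y, |q w v - q y v| < ε := by
        intro v
        have h1 := (L.qcont_pt hy v).tendsto
        have h2 : ∀ᶠ w in 𝓝 y, dist (q w v) (q y v) < ε := h1.eventually (Metric.ball_mem_nhds _ hε)
        simpa [Real.dist_eq] using h2
      filter_upwards [L.op.mem_nhds hy, hbd (h + k), hbd (h - k), hbd h, hbd k] with w h1 h2 h3 h4 h5
      exact ⟨h1, h2, h3, h4, h5⟩
    obtain ⟨δ, hδ, hball⟩ := Metric.eventually_nhds_iff.1 hev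
    set R : ℝ := ‖h‖ + ‖k‖ + 1 with hR
    have hRpos : 0 < R := by positivity
    set s : ℝ := δ / (2 * R) with hs
    have hs0 : 0 < s := by positivity
    have hsR : s * R < δ := by
      rw [hs]
      field_simp
      linarith
    have hclose : ∀ (a b : ℝ) (u v : V), |a| ≤ s → |b| ≤ s → ‖u‖ + ‖v‖ ≤ R →
        dist (y + a • u + b • v) y < δ := by
      intro a b u v ha hb huv
      rw [dist_eq_norm]
      have h1 : y + a • u + b • v - y = a • u + b • v := by abel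
      rw [h1]
      calc ‖a • u + b • v‖ ≤ ‖a • u‖ + ‖b • v‖ := norm_add_le _ _
        _ = |a| * ‖u‖ + |b| * ‖v‖ := by rw [norm_smul, norm_smul, Real.norm_eq_abs, Real.norm_eq_abs]
        _ ≤ s * ‖u‖ + s * ‖v‖ := by gcongr
        _ = s * (‖u‖ + ‖v‖) := by ring
        _ ≤ s * R := by gcongr
        _ < δ := hsR
    have hnorm1 : ‖h + k‖ + ‖(0 : V)‖ ≤ R := by
      have := norm_add_le h k
      simp only [norm_zero, add_zero]
      linarith
    have hnorm2 : ‖h - k‖ + ‖(0 : V)‖ ≤ R := by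
      have := norm_sub_le h k
      simp only [norm_zero, add_zero]
      linarith
    have hnorm3 : ‖k‖ + ‖(0 : V)‖ ≤ R := by
      simp only [norm_zero, add_zero]
      linarith [norm_nonneg h]
    have hnorm4 : ‖k‖ + ‖h‖ ≤ R := by linarith
    have hline : ∀ u : V, ‖u‖ + ‖(0 : V)‖ ≤ R → ∀ t ∈ Set.Icc (-s) s,
        dist (y + t • u) y < δ := by
      intro u hu t ht
      have h1 := hclose t 0 u 0 (abs_le.2 ⟨ht.1, ht.2⟩) (by simpa using hs0.le) hu
      simpa using h1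
    have hline2 : ∀ a : ℝ, |a| ≤ s → ∀ t ∈ Set.Icc (-s) s, dist (y + a • k + t • h) y < δ :=
      fun a ha t ht => hclose a t k h ha (abs_le.2 ⟨ht.1, ht.2⟩) hnorm4
    -- second differences
    obtain ⟨ξ₁, hξ₁, e₁⟩ := L.sec (y := y) (h := h + k) hs0
      (fun t ht => (hball (hline _ hnorm1 t ht)).1)
    obtain ⟨ξ₂, hξ₂, e₂⟩ := L.sec (y := y) (h := h - k) hs0
      (fun t ht => (hball (hline _ hnorm2 t ht)).1)
    obtain ⟨ξ₃, hξ₃, e₃⟩ := L.sec (y := y) (h := k) hs0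
      (fun t ht => (hball (hline _ hnorm3 t ht)).1)
    have habss : |s| ≤ s := by rw [abs_of_pos hs0]
    have habsn : |-s| ≤ s := by rw [abs_neg, abs_of_pos hs0]
    obtain ⟨ξ₄, hξ₄, e₄⟩ := L.sec (y := y + s • k) (h := h) hs0
      (fun t ht => (hball (hline2 s habss t ht)).1)
    obtain ⟨ξ₅, hξ₅, e₅⟩ := L.sec (y := y + (-s) • k) (h := h) hs0
      (fun t ht => (hball (hline2 (-s) habsn t ht)).1)
    -- rewrite the vectors
    have v1 : y + s • (h + k) = y + s • k + s • h := by rw [smul_add]; abel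
    have v2 : y + (-s) • (h + k) = y + (-s) • k + (-s) • h := by rw [smul_add]; abel
    have v3 : y + s • (h - k) = y + (-s) • k + s • h := by
      rw [smul_sub, neg_smul]; abel
    have v4 : y + (-s) • (h - k) = y + s • k + (-s) • h := by
      rw [smul_sub, neg_smul, neg_smul]; abel
    rw [v1, v2] at e₁
    rw [v3, v4] at e₂
    have hsum : s ^ (2 : ℕ) * (q (y + ξ₁ • (h + k)) (h + k) + q (y + ξ₂ • (h - k)) (h - k)
        - 2 * q (y + ξ₃ • k) k) =
        s ^ (2 : ℕ) * (q (y + s • k + ξ₄ • h) h + q (y + (-s) • k + ξ₅ • h) h) := by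
      linarith
    have hs2 : s ^ (2 : ℕ) ≠ 0 := by positivity
    have hcancel := mul_left_cancel₀ hs2 hsum
    -- the estimates
    have b₁ := (hball (hline _ hnorm1 ξ₁ hξ₁)).2.1
    have b₂ := (hball (hline _ hnorm2 ξ₂ hξ₂)).2.2.1
    have b₃ := (hball (hline _ hnorm3 ξ₃ hξ₃)).2.2.2.2
    have b₄ := (hball (hline2 s habss ξ₄ hξ₄)).2.2.2.1
    have b₅ := (hball (hline2 (-s) habsn ξ₅ hξ₅)).2.2.2.1
    rw [abs_lt] at b₁ b₂ b₃ b₄ b₅
    rw [abs_le]
    constructor <;> linarith [b₁.1, b₁.2, b₂.1, b₂.2, b₃.1, b₃.2, b₄.1, b₄.2, b₅.1, b₅.2]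
  have h0 : |q y (h + k) + q y (h - k) - 2 * q y h - 2 * q y k| ≤ 0 := by
    refine le_of_forall_pos_le_add fun ε hε => ?_
    have := key (ε / 6) (by positivity)
    simpa [mul_div_cancel₀] using (by linarith : |q y (h + k) + q y (h - k) - 2 * q y h - 2 * q y k|
      ≤ 0 + ε)
  have h1 := abs_nonpos_iff.1 h0
  linarith

lemma q_zero {y : V} (hy : y ∈ Ω) : q y 0 = 0 := by
  have := L.par hy 0 0
  simp only [add_zero, sub_zero] at this
  linarith

variable [FiniteDimensional ℝ V]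

lemma exQ {y : V} (hy : y ∈ Ω) :
    ∃ Q : V →L[ℝ] V →L[ℝ] ℝ, ∀ a b, Q a b = (q y (a + b) - q y (a - b)) / 4 :=
  exists_bilin (L.qcont_dir hy) (L.par hy)

omit [FiniteDimensional ℝ V] in
lemma Q_diag {y : V} (hy : y ∈ Ω) {Q : V →L[ℝ] V →L[ℝ] ℝ}
    (hQ : ∀ a b, Q a b = (q y (a + b) - q y (a - b)) / 4) (a : V) : Q a a = q y a := by
  rw [hQ, sub_self, L.q_zero hy]
  have := L.par hy a a
  rw [sub_self, L.q_zero hy] at this
  linarith

lemma q_smul {y : V} (hy : y ∈ Ω) (c : ℝ) (a : V) : q y (c • a) = c ^ (2 : ℕ) * q y a := by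
  obtain ⟨Q, hQ⟩ := L.exQ hy
  rw [← L.Q_diag hy hQ, ← L.Q_diag hy hQ]
  simp only [map_smul, smul_apply, smul_eq_mul]
  ring

/-- Uniform continuity of the second derivatives along lines. -/
lemma unif {y : V} (hy : y ∈ Ω) {ε : ℝ} (hε : 0 < ε) :
    ∃ δ > 0, ∀ w, dist w y < δ → w ∈ Ω ∧ ∀ v, |q w v - q y v| ≤ ε * ‖v‖ ^ (2 : ℕ) := by
  have hK : IsCompact (Metric.sphere (0 : V) 1) := isCompact_sphere _ _
  have h1 : ∀ᶠ w in 𝓝 y, ∀ v ∈ Metric.sphere (0 : V) 1, |q w v - q y v| < ε := by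
    refine hK.eventually_forall_of_forall_eventually fun v _ => ?_
    have hc1 : ContinuousAt (fun z : V × V => q z.1 z.2 - q y z.2) (y, v) := by
      refine (L.qcAt hy v).sub ?_
      exact ContinuousAt.comp_of_eq (g := fun v => q y v) (f := fun z : V × V => z.2)
        (L.qcont_dir hy).continuousAt continuousAt_snd rfl
    have hc2 : ∀ᶠ z in 𝓝 (y, v), dist (q z.1 z.2 - q y z.2) (q y v - q y v) < ε :=
      hc1.tendsto.eventually (Metric.ball_mem_nhds _ hε)
    filter_upwards [hc2] with z hz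
    simpa [Real.dist_eq] using hz
  have h2 := h1.and (L.op.mem_nhds hy)
  obtain ⟨δ, hδ, hball⟩ := Metric.eventually_nhds_iff.1 h2
  refine ⟨δ, hδ, fun w hw => ⟨(hball hw).2, fun v => ?_⟩⟩
  have hwΩ := (hball hw).2
  by_cases hv : v = 0
  · simp [hv, L.q_zero hy, L.q_zero hwΩ]
  · have hr : 0 < ‖v‖ := norm_pos_iff.2 hv
    have hunit : ‖v‖⁻¹ • v ∈ Metric.sphere (0 : V) 1 := by
      simp [norm_smul, hv]
    have h3 := (hball hw).1 _ hunit
    have hvdec : v = ‖v‖ • (‖v‖⁻¹ • v) := by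
      rw [smul_smul, mul_inv_cancel₀ hr.ne', one_smul]
    have h4 : q w v - q y v = ‖v‖ ^ (2 : ℕ) * (q w (‖v‖⁻¹ • v) - q y (‖v‖⁻¹ • v)) := by
      conv_lhs => rw [hvdec, L.q_smul hwΩ, L.q_smul hy]
      ring
    rw [h4, abs_mul, abs_of_nonneg (by positivity), mul_comm]
    exact mul_le_mul_of_nonneg_right h3.le (by positivity)

/-- `fderiv f` is differentiable with the bilinear form built from `q`. -/
theorem hasD {y : V} (hy : y ∈ Ω) {Q : V →L[ℝ] V →L[ℝ] ℝ}
    (hQ : ∀ a b, Q a b = (q y (a + b) - q y (a - b)) / 4) :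
    HasFDerivAt (fderiv ℝ f) Q y := by
  rw [hasFDerivAt_iff_isLittleO_nhds_zero, Asymptotics.isLittleO_iff]
  intro c hc
  obtain ⟨δ, hδ, hball⟩ := L.unif hy (ε := c / 3) (by positivity)
  have hnear : ∀ᶠ k : V in 𝓝 0, ‖k‖ < δ / 2 := by
    have := Metric.ball_mem_nhds (0 : V) (half_pos hδ)
    filter_upwards [this] with k hk
    simpa using hk
  filter_upwards [hnear] with k hk
  by_cases hk0 : k = 0
  · simp [hk0]
  set r := ‖k‖ with hr
  have hrpos : 0 < r := norm_pos_iff.2 hk0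
  have hbd : ‖fderiv ℝ f (y + k) - fderiv ℝ f y - Q k‖ ≤ c * r := by
    refine ContinuousLinearMap.opNorm_le_of_unit_norm (by positivity) fun l hl => ?_
    set l₁ := r • l with hl₁
    have hl₁n : ‖l₁‖ = r := by rw [hl₁, norm_smul, hl, mul_one, Real.norm_of_nonneg hrpos.le]
    -- closeness
    have hclose : ∀ (t : ℝ), t ∈ Set.Icc (0 : ℝ) 1 → ∀ u : V, ‖u‖ ≤ 2 * r →
        dist (y + t • u) y < δ := by
      intro t ht u hu
      rw [dist_eq_norm, add_sub_cancel_left, norm_smul, Real.norm_of_nonneg ht.1]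
      calc t * ‖u‖ ≤ 1 * (2 * r) := by
            gcongr
            exact ht.2
        _ < δ := by linarith
    have hkl : ‖k + l₁‖ ≤ 2 * r := by
      have := norm_add_le k l₁
      rw [hl₁n] at this
      linarith
    have hclose2 : ∀ (t : ℝ), t ∈ Set.Icc (0 : ℝ) 1 → dist (y + k + t • l₁) y < δ := by
      intro t ht
      rw [dist_eq_norm]
      have h1 : y + k + t • l₁ - y = k + t • l₁ := by abel
      rw [h1]
      calc ‖k + t • l₁‖ ≤ ‖k‖ + ‖t • l₁‖ := norm_add_le _ _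
        _ = r + t * r := by rw [norm_smul, hl₁n, Real.norm_of_nonneg ht.1]
        _ ≤ r + 1 * r := by
            gcongr
            exact ht.2
        _ < δ := by linarith
    obtain ⟨ξ₁, hξ₁, T₁⟩ := L.tay (y := y) (k := k + l₁)
      (fun t ht => (hball _ (hclose t ht _ hkl)).1)
    obtain ⟨ξ₂, hξ₂, T₂⟩ := L.tay (y := y + k) (k := l₁)
      (fun t ht => (hball _ (hclose2 t ht)).1)
    obtain ⟨ξ₃, hξ₃, T₃⟩ := L.tay (y := y) (k := k)
      (fun t ht => (hball _ (hclose t ht k (by linarith))).1)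
    have b₁ := (hball _ (hclose ξ₁ hξ₁ _ hkl)).2 (k + l₁)
    have b₂ := (hball _ (hclose2 ξ₂ hξ₂)).2 l₁
    have b₃ := (hball _ (hclose ξ₃ hξ₃ k (by linarith))).2 k
    rw [abs_le] at b₁ b₂ b₃
    have hpolar : Q k l₁ = (q y (k + l₁) - q y k - q y l₁) / 2 := by
      rw [hQ]
      have := L.par hy k l₁
      linarith
    have hsq : ‖k + l₁‖ ^ (2 : ℕ) ≤ (2 * r) ^ (2 : ℕ) := by
      gcongr
    have hl₁sq : ‖l₁‖ ^ (2 : ℕ) = r ^ (2 : ℕ) := by rw [hl₁n]
    have hksq : ‖k‖ ^ (2 : ℕ) = r ^ (2 : ℕ) := rfl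
    rw [hl₁sq] at b₂
    rw [hksq] at b₃
    have hc3 : 0 ≤ c / 3 := by positivity
    have hb₁' : c / 3 * ‖k + l₁‖ ^ (2 : ℕ) ≤ c / 3 * (2 * r) ^ (2 : ℕ) :=
      mul_le_mul_of_nonneg_left hsq hc3
    -- linear relation
    have hassoc : y + (k + l₁) = y + k + l₁ := by abel
    rw [hassoc] at T₁
    have hlin : fderiv ℝ f y (k + l₁) = fderiv ℝ f y k + fderiv ℝ f y l₁ := map_add _ _ _
    rw [hlin] at T₁
    have hT : (fderiv ℝ f (y + k) - fderiv ℝ f y - Q k) l₁ = fderiv ℝ f (y + k) l₁ - fderiv ℝ f y l₁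
        - Q k l₁ := by
      simp [sub_apply]
    have hest : |(fderiv ℝ f (y + k) - fderiv ℝ f y - Q k) l₁| ≤ c * r ^ (2 : ℕ) := by
      rw [hT, hpolar, abs_le]
      constructor <;> nlinarith [b₁.1, b₁.2, b₂.1, b₂.2, b₃.1, b₃.2]
    have hscale : (fderiv ℝ f (y + k) - fderiv ℝ f y - Q k) l₁ =
        r * (fderiv ℝ f (y + k) - fderiv ℝ f y - Q k) l := by
      rw [hl₁, map_smul, smul_eq_mul]
    rw [hscale, abs_mul, abs_of_pos hrpos] at hest
    rw [Real.norm_eq_abs]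
    have h5 : r * |(fderiv ℝ f (y + k) - fderiv ℝ f y - Q k) l| ≤ r * (c * r) := by
      calc _ ≤ c * r ^ (2 : ℕ) := hest
        _ = r * (c * r) := by ring
    exact le_of_mul_le_mul_left h5 hrpos
  simpa [hr] using hbd

/-- **Regularity lemma.** -/
theorem contDiffOn_two : ContDiffOn ℝ 2 f Ω := by
  have hD : ∀ y ∈ Ω, ∃ Q : V →L[ℝ] V →L[ℝ] ℝ, (∀ a b, Q a b = (q y (a + b) - q y (a - b)) / 4) ∧
      HasFDerivAt (fderiv ℝ f) Q y := fun y hy => by
    obtain ⟨Q, hQ⟩ := L.exQ hy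
    exact ⟨Q, hQ, L.hasD hy hQ⟩
  have h1 : DifferentiableOn ℝ f Ω := fun y hy => (L.hasF hy).differentiableAt.differentiableWithinAt
  have h2 : DifferentiableOn ℝ (fderiv ℝ f) Ω := fun y hy => by
    obtain ⟨Q, -, hQ⟩ := hD y hy
    exact hQ.differentiableAt.differentiableWithinAt
  have h3 : ContinuousOn (fderiv ℝ (fderiv ℝ f)) Ω := by
    intro y hy
    have hm : ContinuousAt (fderiv ℝ (fderiv ℝ f)) y := by
      refine (Metric.continuousAt_iff (α := V) (β := V →L[ℝ] V →L[ℝ] ℝ)).2 fun c hc => ?_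
      obtain ⟨δ, hδ, hball⟩ := L.unif hy (ε := c / 4) (by positivity)
      refine ⟨δ, hδ, fun w hw => ?_⟩
      obtain ⟨Qw, hQw, hDw⟩ := hD w (hball w hw).1
      obtain ⟨Qy, hQy, hDy⟩ := hD y hy
      rw [hDw.fderiv, hDy.fderiv]
      refine lt_of_eq_of_lt (dist_eq_norm Qw Qy) ?_
      have hb : ‖Qw - Qy‖ ≤ c / 2 := by
        refine ContinuousLinearMap.opNorm_le_of_unit_norm (by positivity) fun a ha => ?_
        refine ContinuousLinearMap.opNorm_le_of_unit_norm (by positivity) fun b hb => ?_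
        have e := (hball w hw).2
        have e1 := e (a + b)
        have e2 := e (a - b)
        have n1 : ‖a + b‖ ^ (2 : ℕ) ≤ 2 ^ (2 : ℕ) := by
          gcongr
          calc ‖a + b‖ ≤ ‖a‖ + ‖b‖ := norm_add_le _ _
            _ = 2 := by rw [ha, hb]; norm_num
        have n2 : ‖a - b‖ ^ (2 : ℕ) ≤ 2 ^ (2 : ℕ) := by
          gcongr
          calc ‖a - b‖ ≤ ‖a‖ + ‖b‖ := norm_sub_le _ _
            _ = 2 := by rw [ha, hb]; norm_num
        have hc4 : 0 ≤ c / 4 := by positivity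
        have n1' := mul_le_mul_of_nonneg_left n1 hc4
        have n2' := mul_le_mul_of_nonneg_left n2 hc4
        rw [abs_le] at e1 e2
        simp only [sub_apply]
        rw [hQw, hQy, Real.norm_eq_abs, abs_le]
        constructor <;> linarith [e1.1, e1.2, e2.1, e2.2]
      linarith
    exact hm.continuousWithinAt
  have h4 : ContDiffOn ℝ 1 (fderiv ℝ f) Ω := by
    have : ContDiffOn ℝ (0 + 1) (fderiv ℝ f) Ω := by
      rw [contDiffOn_succ_iff_fderiv_of_isOpen L.op]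
      refine ⟨h2, by simp, ?_⟩
      exact contDiffOn_zero.2 h3
    simpa using this
  have : ContDiffOn ℝ (1 + 1) f Ω := by
    rw [contDiffOn_succ_iff_fderiv_of_isOpen L.op]
    exact ⟨h1, by simp, h4⟩
  rwa [one_add_one_eq_two] at this

end LineData

end main

end Vale.Agent.Lib.P084T
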