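import Mathlib

/-!
The homogeneous extension of a surjective sphere isometry between spaces with `C^3` norms
is `C^3` off the origin.
-/

open Module Filter Topology

namespace Vale.Agent.Lib.P084T

variable {X Y : Type*} [NormedAddCommGroup X] [NormedSpace ℝ X]
  [NormedAddCommGroup Y] [NormedSpace ℝ Y]

/-- The properties of the homogeneous extension of a sphere isometry. -/
structure HomIso (F : X → Y) : Prop where
  norm_eq : ∀ x, ‖F x‖ = ‖x‖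
  smul : ∀ r : ℝ, 0 < r → ∀ x, F (r • x) = r • F x
  dist : ∀ x y, ‖x‖ = 1 → ‖y‖ = 1 → ‖F x - F y‖ = ‖x - y‖

namespace HomIso

variable {F : X → Y}

lemma map_zero (hF : HomIso F) : F 0 = 0 := by
  have := hF.norm_eq 0
  simpa using this

lemma decomp (hF : HomIso F) {x : X} (hx : x ≠ 0) : F x = ‖x‖ • F (‖x‖⁻¹ • x) := by
  rw [← hF.smul _ (norm_pos_iff.2 hx), smul_smul, mul_inv_cancel₀ (norm_ne_zero_iff.2 hx), one_smul]

lemma dist_same (hF : HomIso F) {x y : X} (h : ‖x‖ = ‖y‖) : ‖F x - F y‖ = ‖x - y‖ := by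
  by_cases hx : x = 0
  · have hy : y = 0 := by
      rw [hx, norm_zero] at h
      exact norm_eq_zero.1 h.symm
    simp [hx, hy]
  · have hr : 0 < ‖x‖ := norm_pos_iff.2 hx
    have hy : y ≠ 0 := by
      intro hy
      rw [hy, norm_zero] at h
      exact hx (norm_eq_zero.1 h)
    have h1 : ‖‖x‖⁻¹ • x‖ = 1 := by
      rw [norm_smul, norm_inv, norm_norm, inv_mul_cancel₀ hr.ne']
    have h2 : ‖‖x‖⁻¹ • y‖ = 1 := by
      rw [norm_smul, norm_inv, norm_norm, ← h, inv_mul_cancel₀ hr.ne']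
    have h3 := hF.dist _ _ h1 h2
    have hx' : x = ‖x‖ • (‖x‖⁻¹ • x) := by
      rw [smul_smul, mul_inv_cancel₀ hr.ne', one_smul]
    have hy' : y = ‖x‖ • (‖x‖⁻¹ • y) := by
      rw [smul_smul, mul_inv_cancel₀ hr.ne', one_smul]
    calc ‖F x - F y‖ = ‖F (‖x‖ • (‖x‖⁻¹ • x)) - F (‖x‖ • (‖x‖⁻¹ • y))‖ := by
          rw [← hx', ← hy']
      _ = ‖x‖ * ‖F (‖x‖⁻¹ • x) - F (‖x‖⁻¹ • y)‖ := by
          rw [hF.smul _ hr, hF.smul _ hr, ← smul_sub, norm_smul, norm_norm]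
      _ = ‖x‖ * ‖‖x‖⁻¹ • x - ‖x‖⁻¹ • y‖ := by rw [h3]
      _ = ‖x - y‖ := by
          rw [← smul_sub, norm_smul, norm_inv, norm_norm, ← mul_assoc, mul_inv_cancel₀ hr.ne',
            one_mul]

lemma continuousAt (hF : HomIso F) {p : X} (hp : p ≠ 0) : ContinuousAt F p := by
  have hπ : ContinuousAt (fun x : X => ‖x‖⁻¹ • x) p :=
    (continuous_norm.continuousAt.inv₀ (norm_ne_zero_iff.2 hp)).smul continuousAt_id
  have hFπ : ContinuousAt (fun x : X => F (‖x‖⁻¹ • x)) p := by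
    rw [ContinuousAt, tendsto_iff_norm_sub_tendsto_zero]
    have h0 : Tendsto (fun x : X => ‖‖x‖⁻¹ • x - ‖p‖⁻¹ • p‖) (𝓝 p) (𝓝 0) :=
      tendsto_iff_norm_sub_tendsto_zero.1 hπ
    refine h0.congr' ?_
    filter_upwards [isOpen_compl_singleton.mem_nhds hp] with x hx
    have hx0 : x ≠ 0 := hx
    have h1 : ‖‖x‖⁻¹ • x‖ = 1 := by
      rw [norm_smul, norm_inv, norm_norm, inv_mul_cancel₀ (norm_ne_zero_iff.2 hx0)]
    have h2 : ‖‖p‖⁻¹ • p‖ = 1 := by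
      rw [norm_smul, norm_inv, norm_norm, inv_mul_cancel₀ (norm_ne_zero_iff.2 hp)]
    exact (hF.dist _ _ h1 h2).symm
  have h := (continuous_norm.continuousAt (x := p)).smul hFπ
  refine h.congr ?_
  filter_upwards [isOpen_compl_singleton.mem_nhds hp] with x hx
  exact (hF.decomp hx).symm

lemma g_eq (hF : HomIso F) (x : X) {q : X} (hq : ‖q‖ = 1) :
    ‖F x - ‖F x‖ • F q‖ = ‖x - ‖x‖ • q‖ := by
  rw [hF.norm_eq]
  by_cases hx : x = 0
  · simp [hx, hF.map_zero]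
  · rw [← hF.smul _ (norm_pos_iff.2 hx)]
    exact hF.dist_same (by rw [norm_smul, norm_norm, hq, mul_one])

end HomIso

section separation

/-- Separation of tangent directions by derivatives of the norm at differences. -/
lemma exists_sep (hn : ContDiffOn ℝ 1 (norm : Y → ℝ) {0}ᶜ) {y₀ t : Y} (hy₀ : ‖y₀‖ = 1)
    (ht0 : t ≠ 0) (ht : fderiv ℝ norm y₀ t = 0) :
    ∃ q : Y, ‖q‖ = 1 ∧ q ≠ y₀ ∧ fderiv ℝ norm (y₀ - q) t ≠ 0 := by
  have hdn : ∀ x : Y, x ≠ 0 → DifferentiableAt ℝ (norm : Y → ℝ) x := fun x hx =>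
    (hn.contDiffAt (isOpen_compl_singleton.mem_nhds hx)).differentiableAt (by norm_num)
  have hdnc : ContinuousOn (fderiv ℝ (norm : Y → ℝ)) {0}ᶜ :=
    hn.continuousOn_fderiv_of_isOpen isOpen_compl_singleton le_rfl
  have hy₀0 : y₀ ≠ 0 := by
    intro h
    rw [h] at hy₀
    simp at hy₀
  -- choose `ε`
  have hcontε : ContinuousAt (fun ε : ℝ => fderiv ℝ (norm : Y → ℝ) (t + ε • y₀) t) 0 := by
    have h1 : ContinuousAt (fun ε : ℝ => t + ε • y₀) 0 := by fun_prop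
    have h2 : ContinuousAt (fderiv ℝ (norm : Y → ℝ)) ((fun ε : ℝ => t + ε • y₀) 0) := by
      apply hdnc.continuousAt
      apply isOpen_compl_singleton.mem_nhds
      simpa using ht0
    have h3 := ContinuousAt.comp (f := fun ε : ℝ => t + ε • y₀) h2 h1
    exact h3.clm_apply continuousAt_const
  have hval : fderiv ℝ (norm : Y → ℝ) (t + (0 : ℝ) • y₀) t = ‖t‖ := by
    simpa using (hdn t ht0).fderiv_norm_self
  have htpos : 0 < ‖t‖ := norm_pos_iff.2 ht0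
  have hev : ∀ᶠ ε : ℝ in 𝓝 0, 0 < fderiv ℝ (norm : Y → ℝ) (t + ε • y₀) t := by
    apply hcontε.eventually_const_lt (u := 0)
    show 0 < fderiv ℝ (norm : Y → ℝ) (t + (0 : ℝ) • y₀) t
    rw [hval]
    exact htpos
  obtain ⟨ε, hε0, hεpos⟩ : ∃ ε : ℝ, 0 < ε ∧ 0 < fderiv ℝ (norm : Y → ℝ) (t + ε • y₀) t := by
    have h1 : ∀ᶠ ε : ℝ in 𝓝[>] 0, 0 < fderiv ℝ (norm : Y → ℝ) (t + ε • y₀) t :=
      hev.filter_mono nhdsWithin_le_nhds
    obtain ⟨ε, h2, h3⟩ := (h1.and self_mem_nhdsWithin).exists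
    exact ⟨ε, h3, h2⟩
  set u : Y := t + ε • y₀ with hu
  have hdu : fderiv ℝ (norm : Y → ℝ) y₀ u = ε := by
    rw [hu, map_add, ht, map_smul, (hdn y₀ hy₀0).fderiv_norm_self, hy₀]
    simp
  have hu0 : u ≠ 0 := by
    intro h
    rw [h, map_zero] at hdu
    exact hε0.ne hdu
  have hupos : 0 < ‖u‖ := norm_pos_iff.2 hu0
  set ψ : ℝ → ℝ := fun s => ‖y₀ - s • u‖ with hψ
  have hψc : Continuous ψ := by fun_prop
  have hψ0 : ψ 0 = 1 := by simp [hψ, hy₀]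
  -- derivative of `ψ` at `0`
  have hψd : HasDerivAt ψ (-ε) 0 := by
    have h1 : HasDerivAt (fun s : ℝ => y₀ - s • u) (-u) 0 := by
      have h2 : HasDerivAt (fun s : ℝ => s • u) ((1 : ℝ) • u) 0 := (hasDerivAt_id (0 : ℝ)).smul_const u
      simpa using h2.const_sub y₀
    have h3 : DifferentiableAt ℝ (norm : Y → ℝ) (y₀ - (0 : ℝ) • u) := by
      simpa using hdn y₀ hy₀0
    have h4 := h3.hasFDerivAt.comp_hasDerivAt (0 : ℝ) h1
    have h5 : fderiv ℝ (norm : Y → ℝ) (y₀ - (0 : ℝ) • u) (-u) = -ε := by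
      simp [hdu]
    rw [h5] at h4
    exact h4
  obtain ⟨s₁, hs₁0, hs₁⟩ : ∃ s : ℝ, 0 < s ∧ ψ s < 1 := by
    have h1 := hasDerivAt_iff_tendsto_slope.1 hψd
    have h2 : ∀ᶠ s in 𝓝[≠] (0 : ℝ), slope ψ 0 s < 0 :=
      h1.eventually_lt_const (by linarith)
    have h3 : ∀ᶠ s in 𝓝[>] (0 : ℝ), slope ψ 0 s < 0 :=
      h2.filter_mono (nhdsWithin_mono _ fun s (hs : 0 < s) => hs.ne')
    obtain ⟨s, h4, h5⟩ := (h3.and self_mem_nhdsWithin).exists
    refine ⟨s, h5, ?_⟩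
    rw [slope_def_field, hψ0] at h4
    have h6 : (0 : ℝ) < s := h5
    rw [sub_zero, div_neg_iff] at h4
    rcases h4 with h7 | h7
    · linarith [h7.2]
    · linarith [h7.1]
  have hlarge : 1 ≤ ψ (2 / ‖u‖) := by
    have h1 := norm_sub_norm_le ((2 / ‖u‖) • u) y₀
    rw [norm_sub_rev ((2 / ‖u‖) • u) y₀, norm_smul, Real.norm_of_nonneg (by positivity),
      div_mul_cancel₀ _ hupos.ne', hy₀] at h1
    simp only [hψ]
    linarith
  have hs₁le : s₁ ≤ 2 / ‖u‖ := by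
    by_contra hcon
    have hcon := not_le.1 hcon
    have h1 := norm_sub_norm_le (s₁ • u) y₀
    rw [norm_sub_rev (s₁ • u) y₀, norm_smul, Real.norm_of_nonneg hs₁0.le, hy₀] at h1
    have h2 : 2 < s₁ * ‖u‖ := by
      rwa [div_lt_iff₀ hupos] at hcon
    simp only [hψ] at hs₁
    linarith
  obtain ⟨s₀, hs₀, hs₀1⟩ := intermediate_value_Icc hs₁le hψc.continuousOn
    (show (1 : ℝ) ∈ Set.Icc (ψ s₁) (ψ (2 / ‖u‖)) from ⟨hs₁.le, hlarge⟩)
  have hs₀0 : 0 < s₀ := lt_of_lt_of_le hs₁0 hs₀.1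
  refine ⟨y₀ - s₀ • u, hs₀1, ?_, ?_⟩
  · intro h
    have h1 : s₀ • u = 0 := by
      have h2 : y₀ - (y₀ - s₀ • u) = 0 := by rw [h, sub_self]
      simpa using h2
    exact (smul_ne_zero hs₀0.ne' hu0) h1
  · have h1 : y₀ - (y₀ - s₀ • u) = s₀ • u := by abel
    rw [h1, fderiv_norm_smul_pos hs₀0]
    exact hεpos.ne'

/-- A finite separating family. -/
lemma exists_family [FiniteDimensional ℝ Y] (hn : ContDiffOn ℝ 1 (norm : Y → ℝ) {0}ᶜ) {y₀ : Y}
    (hy₀ : ‖y₀‖ = 1) :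
    ∃ I : Finset Y, (∀ q ∈ I, ‖q‖ = 1 ∧ q ≠ y₀) ∧
      ∀ t : Y, fderiv ℝ norm y₀ t = 0 → (∀ q ∈ I, fderiv ℝ norm (y₀ - q) t = 0) → t = 0 := by
  classical
  -- induction on the dimension of a subspace
  have key : ∀ d : ℕ, ∀ K : Submodule ℝ Y, finrank ℝ K ≤ d →
      ∃ I : Finset Y, (∀ q ∈ I, ‖q‖ = 1 ∧ q ≠ y₀) ∧
        ∀ t ∈ K, fderiv ℝ norm y₀ t = 0 → (∀ q ∈ I, fderiv ℝ norm (y₀ - q) t = 0) → t = 0 := by
    intro d
    induction d with
    | zero =>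
      intro K hK
      refine ⟨∅, by simp, fun t ht _ _ => ?_⟩
      have hK0 : K = ⊥ := Submodule.finrank_eq_zero.1 (by omega)
      rw [hK0] at ht
      simpa using ht
    | succ d ih =>
      intro K hK
      by_cases hall : ∀ t ∈ K, fderiv ℝ norm y₀ t = 0 → t = 0
      · exact ⟨∅, by simp, fun t ht h0 _ => hall t ht h0⟩
      · simp only [not_forall] at hall
        obtain ⟨t, htK, ht0, htne⟩ := hall
        obtain ⟨q, hq1, hqne, hqd⟩ := exists_sep hn hy₀ htne ht0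
        set K' : Submodule ℝ Y := K ⊓ LinearMap.ker (fderiv ℝ norm (y₀ - q) : Y →ₗ[ℝ] ℝ) with hK'
        have hlt : K' < K := by
          refine lt_of_le_of_ne inf_le_left fun h => ?_
          have : t ∈ K' := by rw [h]; exact htK
          rw [hK', Submodule.mem_inf, LinearMap.mem_ker] at this
          exact hqd this.2
        have hrk : finrank ℝ K' ≤ d := by
          have := Submodule.finrank_lt_finrank_of_lt hlt
          omega
        obtain ⟨I, hI, hI2⟩ := ih K' hrk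
        refine ⟨insert q I, ?_, ?_⟩
        · intro r hr
          rcases Finset.mem_insert.1 hr with rfl | hr
          · exact ⟨hq1, hqne⟩
          · exact hI r hr
        · intro s hsK hs0 hsI
          refine hI2 s ?_ hs0 fun r hr => hsI r (Finset.mem_insert_of_mem hr)
          rw [hK', Submodule.mem_inf, LinearMap.mem_ker]
          exact ⟨hsK, hsI q (Finset.mem_insert_self _ _)⟩
  obtain ⟨I, hI, hI2⟩ := key (finrank ℝ (⊤ : Submodule ℝ Y)) ⊤ le_rfl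
  exact ⟨I, hI, fun t h0 h1 => hI2 t (Submodule.mem_top) h0 h1⟩

end separation

section smooth

/-- The function `y ↦ ‖y - ‖y‖ • q‖`. -/
noncomputable def gfun (q y : Y) : ℝ := ‖y - ‖y‖ • q‖

lemma gfun_contDiffAt {k : WithTop ℕ∞} (hn : ContDiffOn ℝ k (norm : Y → ℝ) {0}ᶜ) {q y : Y}
    (hy : y ≠ 0) (hq : y - ‖y‖ • q ≠ 0) : ContDiffAt ℝ k (gfun q) y := by
  have h1 : ContDiffAt ℝ k (norm : Y → ℝ) y :=
    hn.contDiffAt (isOpen_compl_singleton.mem_nhds hy)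
  have h2 : ContDiffAt ℝ k (norm : Y → ℝ) (y - ‖y‖ • q) :=
    hn.contDiffAt (isOpen_compl_singleton.mem_nhds hq)
  have h3 : ContDiffAt ℝ k (fun y : Y => y - ‖y‖ • q) y :=
    contDiffAt_id.sub (h1.smul contDiffAt_const)
  exact ContDiffAt.comp y h2 h3

lemma gfun_hasFDerivAt (hn : ContDiffOn ℝ 1 (norm : Y → ℝ) {0}ᶜ) {q y : Y} (hy : y ≠ 0)
    (hq : y - ‖y‖ • q ≠ 0) :
    HasFDerivAt (gfun q) ((fderiv ℝ norm (y - ‖y‖ • q)).comp
      (ContinuousLinearMap.id ℝ Y - (fderiv ℝ norm y).smulRight q)) y := by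
  have h1 : HasFDerivAt (norm : Y → ℝ) (fderiv ℝ norm y) y :=
    ((hn.contDiffAt (isOpen_compl_singleton.mem_nhds hy)).differentiableAt
      (by norm_num)).hasFDerivAt
  have h2 : HasFDerivAt (norm : Y → ℝ) (fderiv ℝ norm (y - ‖y‖ • q)) (y - ‖y‖ • q) :=
    ((hn.contDiffAt (isOpen_compl_singleton.mem_nhds hq)).differentiableAt
      (by norm_num)).hasFDerivAt
  have h3 : HasFDerivAt (fun y : Y => y - ‖y‖ • q)
      (ContinuousLinearMap.id ℝ Y - (fderiv ℝ norm y).smulRight q) y :=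
    (hasFDerivAt_id y).sub (h1.smul_const q)
  exact h2.comp y h3

variable [FiniteDimensional ℝ Y]

/-- Smoothness of the homogeneous extension at a unit vector. -/
lemma HomIso.contDiffAt_unit {F : X → Y} (hF : HomIso F)
    (hsurj : ∀ y : Y, ‖y‖ = 1 → ∃ x : X, ‖x‖ = 1 ∧ F x = y)
    {k : WithTop ℕ∞} (hk : 1 ≤ k)
    (hX : ContDiffOn ℝ k (norm : X → ℝ) {0}ᶜ) (hY : ContDiffOn ℝ k (norm : Y → ℝ) {0}ᶜ)
    {p : X} (hp : ‖p‖ = 1) : ContDiffAt ℝ k F p := by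
  classical
  have : CompleteSpace Y := FiniteDimensional.complete ℝ Y
  have hp0 : p ≠ 0 := by
    intro h
    rw [h] at hp
    simp at hp
  set y₀ := F p with hy₀def
  have hy₀ : ‖y₀‖ = 1 := by rw [hy₀def, hF.norm_eq, hp]
  have hy₀0 : y₀ ≠ 0 := by
    intro h
    rw [h] at hy₀
    simp at hy₀
  have hY1 : ContDiffOn ℝ 1 (norm : Y → ℝ) {0}ᶜ := hY.of_le hk
  obtain ⟨I, hI, hIsep⟩ := exists_family hY1 hy₀
  -- preimages of the family
  have hpre : ∀ q : I, ∃ x : X, ‖x‖ = 1 ∧ F x = q.1 := fun q => hsurj q.1 (hI q.1 q.2).1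
  choose r hr1 hrF using hpre
  -- the maps
  set Φ' : Y → (I → ℝ) × ℝ := fun y => (fun i => gfun i.1 y, ‖y‖) with hΦ'
  set Φ : X → (I → ℝ) × ℝ := fun x => (fun i => gfun (r i) x, ‖x‖) with hΦ
  have hrel : ∀ x, Φ' (F x) = Φ x := by
    intro x
    simp only [hΦ', hΦ, hF.norm_eq, Prod.mk.injEq, and_true]
    funext i
    simp only [gfun]
    rw [← hrF i, ← hF.norm_eq x]
    have := hF.g_eq x (hr1 i)
    rw [hF.norm_eq x] at this ⊢
    exact this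
  have hqne : ∀ i : I, y₀ - ‖y₀‖ • i.1 ≠ 0 := by
    intro i h
    rw [hy₀, one_smul, sub_eq_zero] at h
    exact (hI i.1 i.2).2 h.symm
  have hrne : ∀ i : I, p - ‖p‖ • r i ≠ 0 := by
    intro i h
    rw [hp, one_smul, sub_eq_zero] at h
    apply hqne i
    rw [hy₀, one_smul, sub_eq_zero, hy₀def, h, hrF]
  have hΦ'c : ContDiffAt ℝ k Φ' y₀ := by
    refine ContDiffAt.prodMk ?_ (hY.contDiffAt (isOpen_compl_singleton.mem_nhds hy₀0))
    exact contDiffAt_pi.2 fun i => gfun_contDiffAt hY hy₀0 (hqne i)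
  have hΦc : ContDiffAt ℝ k Φ p := by
    refine ContDiffAt.prodMk ?_ (hX.contDiffAt (isOpen_compl_singleton.mem_nhds hp0))
    exact contDiffAt_pi.2 fun i => gfun_contDiffAt hX hp0 (hrne i)
  -- the derivative of `Φ'`
  set D₁ : I → (Y →L[ℝ] ℝ) := fun i => (fderiv ℝ norm (y₀ - ‖y₀‖ • i.1)).comp
      (ContinuousLinearMap.id ℝ Y - (fderiv ℝ norm y₀).smulRight i.1) with hD₁
  set D : Y →L[ℝ] (I → ℝ) × ℝ := (ContinuousLinearMap.pi D₁).prod (fderiv ℝ norm y₀) with hD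
  have hΦ'd : HasFDerivAt Φ' D y₀ := by
    refine HasFDerivAt.prodMk (hasFDerivAt_pi.2 fun i => ?_) ?_
    · exact gfun_hasFDerivAt hY1 hy₀0 (hqne i)
    · exact ((hY1.contDiffAt (isOpen_compl_singleton.mem_nhds hy₀0)).differentiableAt
        (by norm_num)).hasFDerivAt
  have hDinj : LinearMap.ker (D : Y →ₗ[ℝ] (I → ℝ) × ℝ) = ⊥ := by
    rw [LinearMap.ker_eq_bot']
    intro t ht
    have ht' : D t = 0 := ht
    have h1 : fderiv ℝ norm y₀ t = 0 := congrArg Prod.snd ht'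
    refine hIsep t h1 fun q hq => ?_
    have h2 : D₁ ⟨q, hq⟩ t = 0 := congrFun (congrArg Prod.fst ht') ⟨q, hq⟩
    simp only [hD₁, ContinuousLinearMap.comp_apply, sub_apply,
      ContinuousLinearMap.id_apply, ContinuousLinearMap.smulRight_apply, h1, zero_smul, sub_zero,
      hy₀, one_smul] at h2
    exact h2
  obtain ⟨Λ₀, hΛ₀⟩ := LinearMap.exists_leftInverse_of_injective _ hDinj
  set Λ : (I → ℝ) × ℝ →L[ℝ] Y := LinearMap.toContinuousLinearMap Λ₀ with hΛ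
  have hΛD : Λ.comp D = ContinuousLinearMap.id ℝ Y := by
    ext t
    have := congrArg (fun g : Y →ₗ[ℝ] Y => g t) hΛ₀
    simpa [hΛ] using this
  set Ψ : Y → Y := fun y => Λ (Φ' y) with hΨ
  have hΨc : ContDiffAt ℝ k Ψ y₀ := Λ.contDiff.contDiffAt.comp y₀ hΦ'c
  have hΨd : HasFDerivAt Ψ ((ContinuousLinearEquiv.refl ℝ Y : Y ≃L[ℝ] Y) : Y →L[ℝ] Y) y₀ := by
    have h1 := Λ.hasFDerivAt.comp y₀ hΦ'd
    rw [hΛD] at h1
    exact h1
  have hn3 : k ≠ 0 := by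
    intro h0
    rw [h0] at hk
    exact absurd hk (by norm_num)
  set R : Y → Y := hΨc.localInverse hΨd hn3 with hR
  have hRc : ContDiffAt ℝ k R (Ψ y₀) := hΨc.to_localInverse hΨd hn3
  have hleft : ∀ᶠ y in 𝓝 y₀, R (Ψ y) = y :=
    (hΨc.hasStrictFDerivAt' hΨd hn3).eventually_left_inverse
  have hFc : ContinuousAt F p := hF.continuousAt hp0
  have hev : ∀ᶠ x in 𝓝 p, R (Λ (Φ x)) = F x := by
    have h1 : ∀ᶠ x in 𝓝 p, R (Ψ (F x)) = F x := hFc.eventually hleft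
    filter_upwards [h1] with x hx
    have h2 : Ψ (F x) = Λ (Φ x) := by simp only [hΨ, hrel]
    rwa [h2] at hx
  have hcomp : ContDiffAt ℝ k (fun x => R (Λ (Φ x))) p := by
    have h1 : ContDiffAt ℝ k (fun x => Λ (Φ x)) p := Λ.contDiff.contDiffAt.comp p hΦc
    have h2 : ContDiffAt ℝ k R (Λ (Φ p)) := by
      have : Ψ y₀ = Λ (Φ p) := by simp only [hΨ, hy₀def, hrel]
      rwa [this] at hRc
    exact ContDiffAt.comp p h2 h1
  exact hcomp.congr_of_eventuallyEq (hev.mono fun x hx => hx.symm)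

/-- Smoothness of the homogeneous extension off the origin. -/
theorem HomIso.contDiffAt {F : X → Y} (hF : HomIso F)
    (hsurj : ∀ y : Y, ‖y‖ = 1 → ∃ x : X, ‖x‖ = 1 ∧ F x = y)
    {k : WithTop ℕ∞} (hk : 1 ≤ k)
    (hX : ContDiffOn ℝ k (norm : X → ℝ) {0}ᶜ) (hY : ContDiffOn ℝ k (norm : Y → ℝ) {0}ᶜ)
    {p : X} (hp : p ≠ 0) : ContDiffAt ℝ k F p := by
  have hr : 0 < ‖p‖ := norm_pos_iff.2 hp
  have h1 : ‖‖p‖⁻¹ • p‖ = 1 := by
    rw [norm_smul, norm_inv, norm_norm, inv_mul_cancel₀ hr.ne']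
  have h2 := hF.contDiffAt_unit hsurj hk hX hY h1
  have h3 : ContDiffAt ℝ k (fun x : X => ‖p‖⁻¹ • x) p := contDiffAt_const.smul contDiffAt_id
  have h4 : ContDiffAt ℝ k (fun x : X => F (‖p‖⁻¹ • x)) p := ContDiffAt.comp p h2 h3
  have h5 : ContDiffAt ℝ k (fun x : X => ‖p‖ • F (‖p‖⁻¹ • x)) p := contDiffAt_const.smul h4
  have h6 : (fun x : X => ‖p‖ • F (‖p‖⁻¹ • x)) = F := by
    funext x
    rw [← hF.smul _ hr, smul_smul, mul_inv_cancel₀ hr.ne', one_smul]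
  rwa [h6] at h5

end smooth

end Vale.Agent.Lib.P084T
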