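import Vale.Agent.Lib.P084T.Rel

/-!
Properties of the target space forced by a sphere isometry from a smooth strictly convex space:
strict convexity and differentiability of the norm.
-/

open Module Filter Topology

namespace Vale.Agent.Lib.P084T

variable {X Y : Type*} [NormedAddCommGroup X] [NormedSpace ℝ X]
  [NormedAddCommGroup Y] [NormedSpace ℝ Y]

/-- The target of a sphere isometry from a strictly convex space is strictly convex. -/
theorem strictConvex_target [StrictConvexSpace ℝ X] {F : X → Y} {G : Y → X} (hF : HomIso F)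
    (hG : HomIso G) (hFG : ∀ y, F (G y) = y) : StrictConvexSpace ℝ Y := by
  refine StrictConvexSpace.of_norm_add_ne_two ?_
  intro y₁ y₂ h₁ h₂ hne hsum
  set m : Y := (1 / 2 : ℝ) • (y₁ + y₂) with hm
  have hm1 : ‖m‖ = 1 := by
    rw [hm, norm_smul, hsum]
    norm_num
  have hx₁ : ‖G y₁‖ = 1 := by rw [hG.norm_eq, h₁]
  have hx₂ : ‖G y₂‖ = 1 := by rw [hG.norm_eq, h₂]
  have hxm : ‖G m‖ = 1 := by rw [hG.norm_eq, hm1]
  have d₁ : ‖G y₁ - G m‖ = (1 / 2) * ‖y₁ - y₂‖ := by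
    rw [hG.dist _ _ h₁ hm1]
    have : y₁ - m = (1 / 2 : ℝ) • (y₁ - y₂) := by
      rw [hm, smul_sub, smul_add]
      have h3 : y₁ = (1 / 2 : ℝ) • y₁ + (1 / 2 : ℝ) • y₁ := by
        rw [← add_smul]
        norm_num
      nth_rewrite 1 [h3]
      abel
    rw [this, norm_smul]
    norm_num
  have d₂ : ‖G m - G y₂‖ = (1 / 2) * ‖y₁ - y₂‖ := by
    rw [hG.dist _ _ hm1 h₂]
    have : m - y₂ = (1 / 2 : ℝ) • (y₁ - y₂) := by
      rw [hm, smul_sub, smul_add]
      have h3 : y₂ = (1 / 2 : ℝ) • y₂ + (1 / 2 : ℝ) • y₂ := by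
        rw [← add_smul]
        norm_num
      nth_rewrite 2 [h3]
      abel
    rw [this, norm_smul]
    norm_num
  have d₃ : ‖G y₁ - G y₂‖ = ‖y₁ - y₂‖ := hG.dist _ _ h₁ h₂
  have hpos : 0 < ‖y₁ - y₂‖ := norm_pos_iff.2 (sub_ne_zero.2 hne)
  have hsr : SameRay ℝ (G y₁ - G m) (G m - G y₂) := by
    rw [sameRay_iff_norm_add]
    rw [sub_add_sub_cancel, d₃, d₁, d₂]
    ring
  have hsr' := sameRay_iff_norm_smul_eq.1 hsr
  rw [d₁, d₂] at hsr'
  have heq : G m - G y₂ = G y₁ - G m := by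
    refine smul_right_injective X (r := (1 / 2) * ‖y₁ - y₂‖) (by positivity) hsr'
  have hsum2 : G y₁ + G y₂ = (2 : ℝ) • G m := by
    rw [two_smul]
    have h3 : G y₁ = G m - G y₂ + G m := by
      rw [heq]
      abel
    rw [h3]
    abel
  have hx2 : ‖G y₁ + G y₂‖ = ‖G y₁‖ + ‖G y₂‖ := by
    rw [hsum2, norm_smul, hxm, hx₁, hx₂]
    norm_num
  have hsr2 := sameRay_iff_norm_smul_eq.1 (sameRay_iff_norm_add.2 hx2)
  rw [hx₁, hx₂, one_smul, one_smul] at hsr2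
  apply hne
  rw [← hFG y₁, ← hFG y₂, hsr2]

/-- Approximate midpoints on the target sphere. -/
lemma exists_approx_mid {F : X → Y} {G : Y → X} (hF : HomIso F) (hG : HomIso G)
    (hFG : ∀ y, F (G y) = y) {y₀ : Y} (hy₀ : ‖y₀‖ = 1)
    (hX : DifferentiableAt ℝ (norm : X → ℝ) (G y₀)) {y₁ y₂ : ℕ → Y}
    (hy₁ : ∀ k, ‖y₁ k‖ = 1) (hy₂ : ∀ k, ‖y₂ k‖ = 1) {s : ℕ → ℝ} (hs : ∀ k, 0 < s k)
    (hs0 : Tendsto s atTop (𝓝 0)) {C : ℝ} (hC : 0 ≤ C) (hC1 : ∀ k, ‖y₁ k - y₀‖ ≤ C * s k)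
    (hC2 : ∀ k, ‖y₂ k - y₀‖ ≤ C * s k) (hC3 : ∀ k, C * s k ≤ 1 / 4) :
    ∃ z : ℕ → Y, (∀ k, ‖z k‖ = 1) ∧ (∀ k, ‖z k - y₀‖ ≤ 2 * C * s k) ∧
      Tendsto (fun k => (s k)⁻¹ * (‖z k - y₁ k‖ - (1 / 2) * ‖y₁ k - y₂ k‖)) atTop (𝓝 0) ∧
      Tendsto (fun k => (s k)⁻¹ * (‖z k - y₂ k‖ - (1 / 2) * ‖y₁ k - y₂ k‖)) atTop (𝓝 0) := by
  set p := G y₀ with hp
  have hp1 : ‖p‖ = 1 := by rw [hp, hG.norm_eq, hy₀]
  have hp0 : p ≠ 0 := by
    intro h
    rw [h, norm_zero] at hp1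
    exact zero_ne_one hp1
  set x₁ : ℕ → X := fun k => G (y₁ k) with hx₁
  set x₂ : ℕ → X := fun k => G (y₂ k) with hx₂
  have hx₁n : ∀ k, ‖x₁ k‖ = 1 := fun k => by rw [hx₁]; simp only; rw [hG.norm_eq, hy₁]
  have hx₂n : ∀ k, ‖x₂ k‖ = 1 := fun k => by rw [hx₂]; simp only; rw [hG.norm_eq, hy₂]
  have hd₁ : ∀ k, ‖x₁ k - p‖ ≤ C * s k := fun k => by
    rw [hG.dist _ _ (hy₁ k) hy₀]
    exact hC1 k
  have hd₂ : ∀ k, ‖x₂ k - p‖ ≤ C * s k := fun k => by
    rw [hG.dist _ _ (hy₂ k) hy₀]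
    exact hC2 k
  set m : ℕ → X := fun k => (1 / 2 : ℝ) • (x₁ k + x₂ k) with hm
  have hmp : ∀ k, ‖m k - p‖ ≤ C * s k := by
    intro k
    have h1 : m k - p = (1 / 2 : ℝ) • ((x₁ k - p) + (x₂ k - p)) := by
      simp only [hm, smul_add, smul_sub]
      have h3 : p = (1 / 2 : ℝ) • p + (1 / 2 : ℝ) • p := by
        rw [← add_smul]
        norm_num
      nth_rewrite 1 [h3]
      abel
    rw [h1, norm_smul]
    have h2 := norm_add_le (x₁ k - p) (x₂ k - p)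
    have h4 := hd₁ k
    have h5 := hd₂ k
    norm_num
    linarith
  set r : ℕ → ℝ := fun k => ‖m k‖ with hr
  have hr1 : ∀ k, r k ≤ 1 := by
    intro k
    simp only [hr, hm, norm_smul]
    have h1 := norm_add_le (x₁ k) (x₂ k)
    rw [hx₁n, hx₂n] at h1
    norm_num
    linarith
  have hr2 : ∀ k, 1 - C * s k ≤ r k := by
    intro k
    have h1 := norm_sub_norm_le p (m k)
    rw [hp1, norm_sub_rev] at h1
    have h2 := hmp k
    simp only [hr]
    linarith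
  have hrpos : ∀ k, 0 < r k := fun k => by
    have := hr2 k
    have h3 := hC3 k
    linarith
  set q : ℕ → X := fun k => (r k)⁻¹ • m k with hq
  have hqn : ∀ k, ‖q k‖ = 1 := by
    intro k
    simp only [hq, norm_smul, norm_inv, Real.norm_of_nonneg (hrpos k).le]
    exact inv_mul_cancel₀ (hrpos k).ne'
  have hqm : ∀ k, ‖q k - m k‖ = 1 - r k := by
    intro k
    have h1 : q k - m k = ((r k)⁻¹ - 1) • m k := by
      simp only [hq, sub_smul, one_smul]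
    rw [h1, norm_smul]
    have h2 : 0 ≤ (r k)⁻¹ - 1 := by
      rw [sub_nonneg]
      exact (one_le_inv₀ (hrpos k)).2 (hr1 k)
    rw [Real.norm_of_nonneg h2, sub_mul, inv_mul_cancel₀ (hrpos k).ne', one_mul]
  -- `1 - r` is small compared with `s`
  have he : Tendsto (fun k => (s k)⁻¹ * (1 - r k)) atTop (𝓝 0) := by
    have hnt : Nontrivial X := ⟨⟨p, 0, hp0⟩⟩
    have hφn : ‖fderiv ℝ (norm : X → ℝ) p‖ = 1 := norm_fderiv_norm hX
    set φ := fderiv ℝ (norm : X → ℝ) p with hφ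
    have hφp : φ p = 1 := by
      rw [hφ, hX.fderiv_norm_self, hp1]
    have hφle : ∀ x, φ x ≤ ‖x‖ := by
      intro x
      have h1 := φ.le_opNorm x
      rw [hφn, one_mul] at h1
      exact (le_abs_self _).trans h1
    have hlo := hX.hasFDerivAt.isLittleO
    rw [Metric.tendsto_atTop]
    intro ε hε
    set ε' := ε / (2 * (C + 1)) with hε'
    have hε'pos : 0 < ε' := by positivity
    have hbd := Asymptotics.isLittleO_iff.1 hlo hε'pos
    obtain ⟨δ, hδ, hball⟩ := Metric.eventually_nhds_iff.1 hbd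
    have hsmall : ∀ᶠ k in atTop, C * s k < δ := by
      have h1 : Tendsto (fun k => C * s k) atTop (𝓝 (C * 0)) := hs0.const_mul C
      rw [mul_zero] at h1
      exact h1.eventually_lt_const hδ
    obtain ⟨N, hN⟩ := eventually_atTop.1 hsmall
    refine ⟨N, fun k hk => ?_⟩
    have hkey : ∀ x : X, ‖x‖ = 1 → ‖x - p‖ ≤ C * s k → 1 - ε' * (C * s k) ≤ φ x := by
      intro x hx1 hxp
      have hxd : dist x p < δ := by
        rw [dist_eq_norm]
        exact lt_of_le_of_lt hxp (hN k hk)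
      have h1 := hball hxd
      rw [hx1, hp1, Real.norm_eq_abs, map_sub, hφp] at h1
      have h2 : |φ x - 1| ≤ ε' * ‖x - p‖ := by
        have h3 : (1 : ℝ) - 1 - (φ x - 1) = -(φ x - 1) := by ring
        rw [h3, abs_neg] at h1
        exact h1
      have h4 := (abs_le.1 h2).1
      have h5 : ε' * ‖x - p‖ ≤ ε' * (C * s k) := mul_le_mul_of_nonneg_left hxp hε'pos.le
      linarith
    have h1 := hkey _ (hx₁n k) (hd₁ k)
    have h2 := hkey _ (hx₂n k) (hd₂ k)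
    have h3 : φ (m k) = (1 / 2) * (φ (x₁ k) + φ (x₂ k)) := by
      simp only [hm, map_smul, map_add, smul_eq_mul]
    have h4 : φ (m k) ≤ r k := hφle _
    have h5 : 1 - r k ≤ ε' * (C * s k) := by linarith
    have h6 : 0 ≤ 1 - r k := sub_nonneg.2 (hr1 k)
    have hsk := hs k
    rw [Real.dist_eq, sub_zero, abs_of_nonneg (by positivity)]
    calc (s k)⁻¹ * (1 - r k) ≤ (s k)⁻¹ * (ε' * (C * s k)) :=
          mul_le_mul_of_nonneg_left h5 (by positivity)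
      _ = ε' * C := by field_simp
      _ < ε := by
          rw [hε']
          have hC1' : 0 < C + 1 := by linarith
          have : ε / (2 * (C + 1)) * C = ε * (C / (2 * (C + 1))) := by ring
          rw [this]
          have h7 : C / (2 * (C + 1)) < 1 := by
            rw [div_lt_one (by positivity)]
            linarith
          nlinarith
  refine ⟨fun k => F (q k), fun k => by rw [hF.norm_eq, hqn], fun k => ?_, ?_, ?_⟩
  · -- distance to the base point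
    have h1 : F (q k) - y₀ = F (q k) - F p := by rw [hp, hFG]
    rw [h1, hF.dist _ _ (hqn k) hp1]
    have h2 : ‖q k - p‖ ≤ ‖q k - m k‖ + ‖m k - p‖ := by
      have := norm_add_le (q k - m k) (m k - p)
      simpa using this
    rw [hqm] at h2
    have h3 := hmp k
    have h4 := hr2 k
    linarith
  · -- first midpoint estimate
    refine squeeze_zero_norm (fun k => ?_) he
    have hsk := hs k
    have h1 : y₁ k = F (x₁ k) := (hFG _).symm
    have h2 : ‖F (q k) - y₁ k‖ = ‖q k - x₁ k‖ := by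
      rw [h1, hF.dist _ _ (hqn k) (hx₁n k)]
    have h3 : ‖m k - x₁ k‖ = (1 / 2) * ‖y₁ k - y₂ k‖ := by
      have h4 : m k - x₁ k = (1 / 2 : ℝ) • (x₂ k - x₁ k) := by
        simp only [hm, smul_add, smul_sub]
        have h3 : x₁ k = (1 / 2 : ℝ) • x₁ k + (1 / 2 : ℝ) • x₁ k := by
          rw [← add_smul]
          norm_num
        nth_rewrite 2 [h3]
        abel
      rw [h4, norm_smul, norm_sub_rev, hG.dist _ _ (hy₁ k) (hy₂ k)]
      norm_num
    have h5 : |‖q k - x₁ k‖ - ‖m k - x₁ k‖| ≤ 1 - r k := by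
      have h6 := abs_norm_sub_norm_le (q k - x₁ k) (m k - x₁ k)
      rw [sub_sub_sub_cancel_right, hqm] at h6
      exact h6
    rw [h2, ← h3, Real.norm_eq_abs, abs_mul, abs_of_pos (inv_pos.2 hsk)]
    exact mul_le_mul_of_nonneg_left h5 (by positivity)
  · -- second midpoint estimate
    refine squeeze_zero_norm (fun k => ?_) he
    have hsk := hs k
    have h1 : y₂ k = F (x₂ k) := (hFG _).symm
    have h2 : ‖F (q k) - y₂ k‖ = ‖q k - x₂ k‖ := by
      rw [h1, hF.dist _ _ (hqn k) (hx₂n k)]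
    have h3 : ‖m k - x₂ k‖ = (1 / 2) * ‖y₁ k - y₂ k‖ := by
      have h4 : m k - x₂ k = (1 / 2 : ℝ) • (x₁ k - x₂ k) := by
        simp only [hm, smul_add, smul_sub]
        have h3 : x₂ k = (1 / 2 : ℝ) • x₂ k + (1 / 2 : ℝ) • x₂ k := by
          rw [← add_smul]
          norm_num
        nth_rewrite 2 [h3]
        abel
      rw [h4, norm_smul, hG.dist _ _ (hy₁ k) (hy₂ k)]
      norm_num
    have h5 : |‖q k - x₂ k‖ - ‖m k - x₂ k‖| ≤ 1 - r k := by
      have h6 := abs_norm_sub_norm_le (q k - x₂ k) (m k - x₂ k)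
      rw [sub_sub_sub_cancel_right, hqm] at h6
      exact h6
    rw [h2, ← h3, Real.norm_eq_abs, abs_mul, abs_of_pos (inv_pos.2 hsk)]
    exact mul_le_mul_of_nonneg_left h5 (by positivity)

/-- Support functionals of the target norm are unique. -/
theorem support_unique [FiniteDimensional ℝ Y] [StrictConvexSpace ℝ Y] {F : X → Y} {G : Y → X}
    (hF : HomIso F) (hG : HomIso G) (hFG : ∀ y, F (G y) = y) {y₀ : Y} (hy₀ : ‖y₀‖ = 1)
    (hX : DifferentiableAt ℝ (norm : X → ℝ) (G y₀)) {ψ₁ ψ₂ : Y →L[ℝ] ℝ} (n₁ : ‖ψ₁‖ ≤ 1)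
    (n₂ : ‖ψ₂‖ ≤ 1) (e₁ : ψ₁ y₀ = 1) (e₂ : ψ₂ y₀ = 1) : ψ₁ = ψ₂ := by
  by_contra hne
  have hbd : ∀ (ψ : Y →L[ℝ] ℝ), ‖ψ‖ ≤ 1 → ∀ x, ψ x ≤ ‖x‖ := by
    intro ψ hψ x
    have h1 := ψ.le_opNorm x
    have h2 : ‖ψ‖ * ‖x‖ ≤ 1 * ‖x‖ := mul_le_mul_of_nonneg_right hψ (norm_nonneg _)
    have h3 := le_abs_self (ψ x)
    rw [Real.norm_eq_abs] at h1
    linarith
  obtain ⟨v₀, hv₀⟩ : ∃ v₀, ψ₁ v₀ ≠ ψ₂ v₀ := by
    by_contra h
    apply hne
    ext x
    by_contra hx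
    exact h ⟨x, hx⟩
  obtain ⟨v, hψ₁v, hψ₂v⟩ : ∃ v : Y, ψ₁ v = 1 ∧ ψ₂ v = -1 := by
    set c₀ := (ψ₁ v₀ + ψ₂ v₀) / 2 with hc₀
    set d := (ψ₁ v₀ - ψ₂ v₀) / 2 with hd
    have hd0 : d ≠ 0 := by
      intro h
      apply hv₀
      rw [hd] at h
      linarith
    refine ⟨d⁻¹ • (v₀ - c₀ • y₀), ?_, ?_⟩
    · simp only [map_smul, map_sub, e₁, smul_eq_mul, mul_one]
      have h1 : ψ₁ v₀ - c₀ = d := by rw [hc₀, hd]; ring
      rw [h1, inv_mul_cancel₀ hd0]
    · simp only [map_smul, map_sub, e₂, smul_eq_mul, mul_one]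
      have h1 : ψ₂ v₀ - c₀ = -d := by rw [hc₀, hd]; ring
      rw [h1, mul_neg, inv_mul_cancel₀ hd0]
  have hV1 : 1 ≤ ‖v‖ := by
    have := hbd ψ₁ n₁ v
    rwa [hψ₁v] at this
  set V := ‖v‖ with hV
  have hVpos : 0 < V := by linarith
  set s : ℕ → ℝ := fun k => (8 * V)⁻¹ * (1 / ((k : ℝ) + 1)) with hs
  have hspos : ∀ k, 0 < s k := fun k => by
    simp only [hs]
    positivity
  have hs0 : Tendsto s atTop (𝓝 0) := by
    have := (tendsto_one_div_add_atTop_nhds_zero_nat (𝕜 := ℝ)).const_mul (8 * V)⁻¹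
    simpa [hs] using this
  have hsV : ∀ k, V * s k ≤ 1 / 8 := by
    intro k
    have h1 : 1 / ((k : ℝ) + 1) ≤ 1 := by
      rw [div_le_one (by positivity)]
      have : (0 : ℝ) ≤ k := Nat.cast_nonneg k
      linarith
    calc V * s k = (1 / 8) * (1 / ((k : ℝ) + 1)) := by
          simp only [hs]
          field_simp
      _ ≤ (1 / 8) * 1 := by gcongr
      _ = 1 / 8 := by norm_num
  set a : ℕ → ℝ := fun k => ‖y₀ + s k • v‖ with ha
  set b : ℕ → ℝ := fun k => ‖y₀ - s k • v‖ with hb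
  have ha1 : ∀ k, 1 + s k ≤ a k := by
    intro k
    have := hbd ψ₁ n₁ (y₀ + s k • v)
    simpa [e₁, hψ₁v] using this
  have hb1 : ∀ k, 1 + s k ≤ b k := by
    intro k
    have := hbd ψ₂ n₂ (y₀ - s k • v)
    simpa [e₂, hψ₂v] using this
  have ha2 : ∀ k, a k ≤ 1 + s k * V := by
    intro k
    have h1 := norm_add_le y₀ (s k • v)
    rw [hy₀, norm_smul, Real.norm_of_nonneg (hspos k).le] at h1
    exact h1
  have hb2 : ∀ k, b k ≤ 1 + s k * V := by
    intro k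
    have h1 := norm_sub_le y₀ (s k • v)
    rw [hy₀, norm_smul, Real.norm_of_nonneg (hspos k).le] at h1
    exact h1
  have hapos : ∀ k, 0 < a k := fun k => by linarith [ha1 k, hspos k]
  have hbpos : ∀ k, 0 < b k := fun k => by linarith [hb1 k, hspos k]
  set α : ℕ → ℝ := fun k => (a k - 1) / s k with hα
  set β : ℕ → ℝ := fun k => (b k - 1) / s k with hβ
  have hαb : ∀ k, α k ∈ Set.Icc (1 : ℝ) V := by
    intro k
    constructor
    · simp only [hα]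
      rw [le_div_iff₀ (hspos k)]
      linarith [ha1 k]
    · simp only [hα]
      rw [div_le_iff₀ (hspos k)]
      linarith [ha2 k]
  have hβb : ∀ k, β k ∈ Set.Icc (1 : ℝ) V := by
    intro k
    constructor
    · simp only [hβ]
      rw [le_div_iff₀ (hspos k)]
      linarith [hb1 k]
    · simp only [hβ]
      rw [div_le_iff₀ (hspos k)]
      linarith [hb2 k]
  have haα : ∀ k, a k = 1 + s k * α k := by
    intro k
    simp only [hα]
    field_simp [(hspos k).ne']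
    ring
  have hbβ : ∀ k, b k = 1 + s k * β k := by
    intro k
    simp only [hβ]
    field_simp [(hspos k).ne']
    ring
  set y₁ : ℕ → Y := fun k => (a k)⁻¹ • (y₀ + s k • v) with hy₁
  set y₂ : ℕ → Y := fun k => (b k)⁻¹ • (y₀ - s k • v) with hy₂
  have hy₁n : ∀ k, ‖y₁ k‖ = 1 := by
    intro k
    simp only [hy₁, norm_smul, norm_inv, Real.norm_of_nonneg (hapos k).le]
    exact inv_mul_cancel₀ (hapos k).ne'
  have hy₂n : ∀ k, ‖y₂ k‖ = 1 := by
    intro k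
    simp only [hy₂, norm_smul, norm_inv, Real.norm_of_nonneg (hbpos k).le]
    exact inv_mul_cancel₀ (hbpos k).ne'
  set τ₁ : ℕ → Y := fun k => (a k)⁻¹ • (v - α k • y₀) with hτ₁
  set τ₂ : ℕ → Y := fun k => (b k)⁻¹ • (-v - β k • y₀) with hτ₂
  have hτ₁e : ∀ k, y₁ k - y₀ = s k • τ₁ k := by
    intro k
    have h2 : s k * α k = a k - 1 := by rw [haα k]; ring
    have h3 : s k * (a k)⁻¹ * α k = 1 - (a k)⁻¹ := by
      have := (hapos k).ne'
      calc s k * (a k)⁻¹ * α k = (a k)⁻¹ * (s k * α k) := by ring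
        _ = 1 - (a k)⁻¹ := by rw [h2]; field_simp
    simp only [hy₁, hτ₁]
    rw [smul_smul, smul_sub, smul_smul, h3, smul_add, smul_smul, sub_smul, one_smul, mul_comm]
    abel
  have hτ₂e : ∀ k, y₂ k - y₀ = s k • τ₂ k := by
    intro k
    have h2 : s k * β k = b k - 1 := by rw [hbβ k]; ring
    have h3 : s k * (b k)⁻¹ * β k = 1 - (b k)⁻¹ := by
      have := (hbpos k).ne'
      calc s k * (b k)⁻¹ * β k = (b k)⁻¹ * (s k * β k) := by ring
        _ = 1 - (b k)⁻¹ := by rw [h2]; field_simp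
    simp only [hy₂, hτ₂]
    rw [smul_sub (b k)⁻¹ y₀ _, smul_smul, smul_smul (s k) (b k)⁻¹, smul_sub (s k * (b k)⁻¹),
      smul_neg, smul_smul (s k * (b k)⁻¹) (β k), h3, sub_smul, one_smul, mul_comm]
    abel
  have hτ₁n : ∀ k, ‖τ₁ k‖ ≤ 2 * V := by
    intro k
    simp only [hτ₁]
    rw [norm_smul, norm_inv, Real.norm_of_nonneg (hapos k).le]
    have h1 : ‖v - α k • y₀‖ ≤ V + α k := by
      have := norm_sub_le v (α k • y₀)
      rw [norm_smul (α k) y₀, hy₀, mul_one, Real.norm_of_nonneg (by linarith [(hαb k).1])] at this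
      exact this
    have h2 : (a k)⁻¹ ≤ 1 := inv_le_one_of_one_le₀ (by linarith [ha1 k, hspos k])
    have h3 : V + α k ≤ 2 * V := by linarith [(hαb k).2]
    calc (a k)⁻¹ * ‖v - α k • y₀‖ ≤ 1 * (2 * V) := by
          gcongr
          exact h1.trans h3
      _ = 2 * V := one_mul _
  have hτ₂n : ∀ k, ‖τ₂ k‖ ≤ 2 * V := by
    intro k
    simp only [hτ₂]
    rw [norm_smul, norm_inv, Real.norm_of_nonneg (hbpos k).le]
    have h1 : ‖-v - β k • y₀‖ ≤ V + β k := by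
      have := norm_sub_le (-v) (β k • y₀)
      rw [norm_neg, norm_smul (β k) y₀, hy₀, mul_one,
        Real.norm_of_nonneg (by linarith [(hβb k).1])] at this
      exact this
    have h2 : (b k)⁻¹ ≤ 1 := inv_le_one_of_one_le₀ (by linarith [hb1 k, hspos k])
    have h3 : V + β k ≤ 2 * V := by linarith [(hβb k).2]
    calc (b k)⁻¹ * ‖-v - β k • y₀‖ ≤ 1 * (2 * V) := by
          gcongr
          exact h1.trans h3
      _ = 2 * V := one_mul _
  have hC1 : ∀ k, ‖y₁ k - y₀‖ ≤ (2 * V) * s k := by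
    intro k
    rw [hτ₁e, norm_smul, Real.norm_of_nonneg (hspos k).le, mul_comm]
    exact mul_le_mul_of_nonneg_right (hτ₁n k) (hspos k).le
  have hC2 : ∀ k, ‖y₂ k - y₀‖ ≤ (2 * V) * s k := by
    intro k
    rw [hτ₂e, norm_smul, Real.norm_of_nonneg (hspos k).le, mul_comm]
    exact mul_le_mul_of_nonneg_right (hτ₂n k) (hspos k).le
  have hC3 : ∀ k, (2 * V) * s k ≤ 1 / 4 := fun k => by linarith [hsV k]
  obtain ⟨z, hz1, hz2, ht1, ht2⟩ := exists_approx_mid hF hG hFG hy₀ hX hy₁n hy₂n hspos hs0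
    (by positivity) hC1 hC2 hC3
  obtain ⟨ζ, hζe, hζn⟩ : ∃ ζ : ℕ → Y, (∀ k, z k - y₀ = s k • ζ k) ∧
      ∀ k, ζ k ∈ Metric.closedBall (0 : Y) (4 * V) := by
    refine ⟨fun k => (s k)⁻¹ • (z k - y₀), fun k => ?_, fun k => ?_⟩
    · simp only
      rw [smul_smul, mul_inv_cancel₀ (hspos k).ne', one_smul]
    · rw [mem_closedBall_zero_iff]
      simp only
      rw [norm_smul, norm_inv, Real.norm_of_nonneg (hspos k).le, inv_mul_le_iff₀ (hspos k)]
      have := hz2 k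
      linarith
  -- extraction of a convergent subsequence
  have hprop : ProperSpace Y := FiniteDimensional.proper_real Y
  have hK : IsCompact (Set.Icc (1 : ℝ) V ×ˢ (Set.Icc (1 : ℝ) V ×ˢ Metric.closedBall (0 : Y) (4 * V))) :=
    isCompact_Icc.prod (isCompact_Icc.prod (isCompact_closedBall _ _))
  obtain ⟨⟨αL, βL, ζL⟩, hmem, φ, hφ, hlim⟩ := hK.tendsto_subseq
    (x := fun k => (α k, β k, ζ k)) (fun k => ⟨hαb k, hβb k, hζn k⟩)
  have hφt : Tendsto φ atTop atTop := hφ.tendsto_atTop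
  have hαlim : Tendsto (fun k => α (φ k)) atTop (𝓝 αL) :=
    (continuous_fst.tendsto _).comp hlim
  have hβlim : Tendsto (fun k => β (φ k)) atTop (𝓝 βL) :=
    (continuous_fst.comp continuous_snd |>.tendsto _).comp hlim
  have hζlim : Tendsto (fun k => ζ (φ k)) atTop (𝓝 ζL) :=
    (continuous_snd.comp continuous_snd |>.tendsto _).comp hlim
  have hsφ : Tendsto (fun k => s (φ k)) atTop (𝓝 0) := hs0.comp hφt
  have halim : Tendsto (fun k => (a (φ k))⁻¹) atTop (𝓝 1) := by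
    have h1 : Tendsto (fun k => 1 + s (φ k) * α (φ k)) atTop (𝓝 (1 + 0 * αL)) :=
      (hsφ.mul hαlim).const_add 1
    have h2 := h1.inv₀ (by simp)
    simpa [haα] using h2
  have hblim : Tendsto (fun k => (b (φ k))⁻¹) atTop (𝓝 1) := by
    have h1 : Tendsto (fun k => 1 + s (φ k) * β (φ k)) atTop (𝓝 (1 + 0 * βL)) :=
      (hsφ.mul hβlim).const_add 1
    have h2 := h1.inv₀ (by simp)
    simpa [hbβ] using h2
  set t₁ : Y := v - αL • y₀ with ht₁
  set t₂ : Y := -v - βL • y₀ with ht₂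
  have hτ₁lim : Tendsto (fun k => τ₁ (φ k)) atTop (𝓝 t₁) := by
    have h1 : Tendsto (fun k => v - α (φ k) • y₀) atTop (𝓝 t₁) :=
      tendsto_const_nhds.sub (hαlim.smul_const y₀)
    have h2 := halim.smul h1
    simpa [hτ₁] using h2
  have hτ₂lim : Tendsto (fun k => τ₂ (φ k)) atTop (𝓝 t₂) := by
    have h1 : Tendsto (fun k => -v - β (φ k) • y₀) atTop (𝓝 t₂) :=
      tendsto_const_nhds.sub (hβlim.smul_const y₀)
    have h2 := hblim.smul h1
    simpa [hτ₂] using h2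
  -- the rescaled identities
  have hrel₁ : ∀ k, (s k)⁻¹ * (‖z k - y₁ k‖ - (1 / 2) * ‖y₁ k - y₂ k‖) =
      ‖ζ k - τ₁ k‖ - (1 / 2) * ‖τ₁ k - τ₂ k‖ := by
    intro k
    have e1 : z k - y₁ k = s k • (ζ k - τ₁ k) := by
      rw [smul_sub, ← hζe, ← hτ₁e]
      abel
    have e2 : y₁ k - y₂ k = s k • (τ₁ k - τ₂ k) := by
      rw [smul_sub, ← hτ₁e, ← hτ₂e]
      abel
    rw [e1, e2, norm_smul, norm_smul, Real.norm_of_nonneg (hspos k).le]
    have := (hspos k).ne'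
    field_simp
  have hrel₂ : ∀ k, (s k)⁻¹ * (‖z k - y₂ k‖ - (1 / 2) * ‖y₁ k - y₂ k‖) =
      ‖ζ k - τ₂ k‖ - (1 / 2) * ‖τ₁ k - τ₂ k‖ := by
    intro k
    have e1 : z k - y₂ k = s k • (ζ k - τ₂ k) := by
      rw [smul_sub, ← hζe, ← hτ₂e]
      abel
    have e2 : y₁ k - y₂ k = s k • (τ₁ k - τ₂ k) := by
      rw [smul_sub, ← hτ₁e, ← hτ₂e]
      abel
    rw [e1, e2, norm_smul, norm_smul, Real.norm_of_nonneg (hspos k).le]
    have := (hspos k).ne'
    field_simp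
  have hm₁ : ‖ζL - t₁‖ = (1 / 2) * ‖t₁ - t₂‖ := by
    have h1 : Tendsto (fun k => ‖ζ (φ k) - τ₁ (φ k)‖ - (1 / 2) * ‖τ₁ (φ k) - τ₂ (φ k)‖) atTop
        (𝓝 (‖ζL - t₁‖ - (1 / 2) * ‖t₁ - t₂‖)) :=
      (hζlim.sub hτ₁lim).norm.sub (((hτ₁lim.sub hτ₂lim).norm).const_mul _)
    have h2 : Tendsto (fun k => ‖ζ (φ k) - τ₁ (φ k)‖ - (1 / 2) * ‖τ₁ (φ k) - τ₂ (φ k)‖) atTop (𝓝 0) := by
      exact (ht1.comp hφt).congr fun k => hrel₁ (φ k)
    have h3 := tendsto_nhds_unique h1 h2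
    linarith
  have hm₂ : ‖ζL - t₂‖ = (1 / 2) * ‖t₁ - t₂‖ := by
    have h1 : Tendsto (fun k => ‖ζ (φ k) - τ₂ (φ k)‖ - (1 / 2) * ‖τ₁ (φ k) - τ₂ (φ k)‖) atTop
        (𝓝 (‖ζL - t₂‖ - (1 / 2) * ‖t₁ - t₂‖)) :=
      (hζlim.sub hτ₂lim).norm.sub (((hτ₁lim.sub hτ₂lim).norm).const_mul _)
    have h2 : Tendsto (fun k => ‖ζ (φ k) - τ₂ (φ k)‖ - (1 / 2) * ‖τ₁ (φ k) - τ₂ (φ k)‖) atTop (𝓝 0) := by
      exact (ht2.comp hφt).congr fun k => hrel₂ (φ k)
    have h3 := tendsto_nhds_unique h1 h2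
    linarith
  -- strict convexity of the target
  have hAB : t₁ - ζL = ζL - t₂ := by
    have hA : ‖t₁ - ζL‖ = (1 / 2) * ‖t₁ - t₂‖ := by rw [norm_sub_rev, hm₁]
    have hsr : SameRay ℝ (t₁ - ζL) (ζL - t₂) := by
      rw [sameRay_iff_norm_add, sub_add_sub_cancel, hA, hm₂]
      ring
    have h1 := sameRay_iff_norm_smul_eq.1 hsr
    rw [hA, hm₂] at h1
    by_cases h0 : ‖t₁ - t₂‖ = 0
    · have h2 : ‖t₁ - ζL‖ = 0 := by rw [hA, h0, mul_zero]
      have h3 : ‖ζL - t₂‖ = 0 := by rw [hm₂, h0, mul_zero]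
      rw [norm_eq_zero.1 h2, norm_eq_zero.1 h3]
    · exact (smul_right_injective Y (r := (1 / 2) * ‖t₁ - t₂‖) (by positivity) h1).symm
  set c' := (αL + βL) / 2 with hc'
  have hαL : αL ∈ Set.Icc (1 : ℝ) V := hmem.1
  have hβL : βL ∈ Set.Icc (1 : ℝ) V := hmem.2.1
  have hc'1 : 1 ≤ c' := by
    rw [hc']
    linarith [hαL.1, hβL.1]
  have hc'2 : c' ≤ V := by
    rw [hc']
    linarith [hαL.2, hβL.2]
  have hζL : ζL = -(c' • y₀) := by
    have h1 : (2 : ℝ) • ζL = t₁ + t₂ := by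
      rw [two_smul]
      have h2 : ζL + ζL = (t₁ + t₂) + ((ζL - t₂) - (t₁ - ζL)) := by abel
      rw [h2, ← hAB]
      simp
    have h3 : t₁ + t₂ = (2 : ℝ) • (-(c' • y₀)) := by
      simp only [ht₁, ht₂, hc', smul_neg, smul_smul]
      have h4 : (2 : ℝ) * ((αL + βL) / 2) = αL + βL := by ring
      rw [h4, add_smul]
      abel
    rw [h3] at h1
    exact smul_right_injective Y (r := (2 : ℝ)) (by norm_num) h1
  -- contradiction
  have hfin : ∀ k, c' ≤ ‖ζ (φ k) - ζL‖ := by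
    intro k
    have hsk := hspos (φ k)
    have h1 : z (φ k) = y₀ + s (φ k) • ζ (φ k) := by
      rw [← hζe]
      abel
    have h2 : y₀ + s (φ k) • ζ (φ k) = (1 - s (φ k) * c') • y₀ + s (φ k) • (ζ (φ k) - ζL) := by
      rw [hζL, sub_neg_eq_add, smul_add, smul_smul, sub_smul, one_smul]
      abel
    have h3 := hz1 (φ k)
    rw [h1, h2] at h3
    have h4 := norm_add_le ((1 - s (φ k) * c') • y₀) (s (φ k) • (ζ (φ k) - ζL))
    rw [h3, norm_smul, norm_smul, hy₀, mul_one, Real.norm_of_nonneg hsk.le] at h4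
    have h5 : 0 ≤ 1 - s (φ k) * c' := by
      have h6 : s (φ k) * c' ≤ s (φ k) * V := mul_le_mul_of_nonneg_left hc'2 hsk.le
      have h7 := hsV (φ k)
      nlinarith
    rw [Real.norm_of_nonneg h5] at h4
    have h8 : s (φ k) * c' ≤ s (φ k) * ‖ζ (φ k) - ζL‖ := by linarith
    exact le_of_mul_le_mul_left h8 hsk
  have hlim0 : Tendsto (fun k => ‖ζ (φ k) - ζL‖) atTop (𝓝 0) :=
    tendsto_iff_norm_sub_tendsto_zero.1 hζlim
  have := ge_of_tendsto' hlim0 hfin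
  linarith

end Vale.Agent.Lib.P084T
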