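import Vale.Agent.Lib.P084T.YSide1
import Vale.Agent.Lib.P084T.Reg

/-!
Regularity of the target norm.
-/

open Module Filter Topology

namespace Vale.Agent.Lib.P084T

variable {X Y : Type*} [NormedAddCommGroup X] [NormedSpace ℝ X]
  [NormedAddCommGroup Y] [NormedSpace ℝ Y]

lemma tendsto_clm_apply {ι E F : Type*} [NormedAddCommGroup E] [NormedSpace ℝ E]
    [NormedAddCommGroup F] [NormedSpace ℝ F] {l : Filter ι} {T : ι → E →L[ℝ] F} {x : ι → E}
    {T₀ : E →L[ℝ] F} {x₀ : E} (h1 : Tendsto T l (𝓝 T₀)) (h2 : Tendsto x l (𝓝 x₀)) :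
    Tendsto (fun j => T j (x j)) l (𝓝 (T₀ x₀)) :=
  ((isBoundedBilinearMap_apply (𝕜 := ℝ) (E := E) (F := F)).continuous.continuousAt (x := (T₀, x₀))).tendsto.comp
    (h1.prodMk_nhds h2)

lemma dual_le {ψ : Y →L[ℝ] ℝ} (hψ : ‖ψ‖ ≤ 1) (x : Y) : ψ x ≤ ‖x‖ := by
  have h1 := ψ.le_opNorm x
  have h2 : ‖ψ‖ * ‖x‖ ≤ 1 * ‖x‖ := mul_le_mul_of_nonneg_right hψ (norm_nonneg _)
  have h3 := le_abs_self (ψ x)
  rw [Real.norm_eq_abs] at h1
  linarith

/-- A support functional at a point of differentiability is the derivative of the norm. -/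
lemma supp_eq_fderiv {y : Y} (hd : DifferentiableAt ℝ (norm : Y → ℝ) y) {ψ : Y →L[ℝ] ℝ}
    (hψ : ‖ψ‖ ≤ 1) (hy : ψ y = ‖y‖) : ψ = fderiv ℝ norm y := by
  ext w
  have hline : HasDerivAt (fun t : ℝ => y + t • w) w 0 := by
    have h1 : HasDerivAt (fun t : ℝ => t • w) ((1 : ℝ) • w) 0 := (hasDerivAt_id (0 : ℝ)).smul_const w
    simpa using h1.const_add y
  have h1 : HasDerivAt (fun t : ℝ => ‖y + t • w‖) (fderiv ℝ norm y w) 0 :=
    hd.hasFDerivAt.comp_hasDerivAt_of_eq (0 : ℝ) hline (by simp)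
  have h2 : HasDerivAt (fun t : ℝ => ψ (y + t • w)) (ψ w) 0 :=
    ψ.hasFDerivAt.comp_hasDerivAt (0 : ℝ) hline
  have h3 := h1.sub h2
  have hmin : IsLocalMin (fun t : ℝ => ‖y + t • w‖ - ψ (y + t • w)) 0 := by
    refine Eventually.of_forall fun t => ?_
    simp only [zero_smul, add_zero, hy, sub_self]
    exact sub_nonneg.2 (dual_le hψ _)
  have h4 := hmin.hasDerivAt_eq_zero h3
  linarith

variable [FiniteDimensional ℝ Y]

/-- Uniqueness of support functionals gives differentiability of the norm. -/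
lemma differentiableAt_of_unique {y₀ : Y} (hy₀ : ‖y₀‖ = 1)
    (huniq : ∀ ψ₁ ψ₂ : Y →L[ℝ] ℝ, ‖ψ₁‖ ≤ 1 → ‖ψ₂‖ ≤ 1 → ψ₁ y₀ = 1 → ψ₂ y₀ = 1 → ψ₁ = ψ₂) :
    DifferentiableAt ℝ (norm : Y → ℝ) y₀ := by
  have hsupp : ∀ y : Y, ∃ g : Y →L[ℝ] ℝ, ‖g‖ ≤ 1 ∧ g y = ‖y‖ := by
    intro y
    obtain ⟨g, h1, h2⟩ := exists_dual_vector'' ℝ y
    exact ⟨g, h1, by simpa using h2⟩
  choose supp hsn hsv using hsupp
  set ψ := supp y₀ with hψ
  have hψ1 : ψ y₀ = 1 := by rw [hψ, hsv, hy₀]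
  refine ⟨ψ, ?_⟩
  rw [hasFDerivAt_iff_isLittleO_nhds_zero, Asymptotics.isLittleO_iff]
  intro c hc
  by_contra hcon
  rw [not_eventually] at hcon
  obtain ⟨ks, hks, hbad⟩ := exists_seq_forall_of_frequently hcon
  have hprop : ProperSpace (Y →L[ℝ] ℝ) := FiniteDimensional.proper_real _
  obtain ⟨ψ', hψ', φ, hφ, hlim₀⟩ := (isCompact_closedBall (0 : Y →L[ℝ] ℝ) 1).tendsto_subseq
    (x := fun j => supp (y₀ + ks j)) (fun j => by
      rw [mem_closedBall_zero_iff]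
      exact hsn _)
  have hlim : Tendsto (fun j => supp (y₀ + ks (φ j))) atTop (𝓝 ψ') := hlim₀
  have hψ'n : ‖ψ'‖ ≤ 1 := by simpa using hψ'
  have hφt := hφ.tendsto_atTop
  have hkφ : Tendsto (fun j => ks (φ j)) atTop (𝓝 0) := hks.comp hφt
  have hval : ψ' y₀ = 1 := by
    have h1 : Tendsto (fun j => supp (y₀ + ks (φ j)) y₀) atTop (𝓝 (ψ' y₀)) :=
      tendsto_clm_apply hlim tendsto_const_nhds
    have h2 : ∀ j, supp (y₀ + ks (φ j)) y₀ =
        ‖y₀ + ks (φ j)‖ - supp (y₀ + ks (φ j)) (ks (φ j)) := by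
      intro j
      have := hsv (y₀ + ks (φ j))
      rw [map_add] at this
      linarith
    have h3 : Tendsto (fun j => ‖y₀ + ks (φ j)‖) atTop (𝓝 ‖y₀ + 0‖) :=
      (tendsto_const_nhds.add hkφ).norm
    have h4 : Tendsto (fun j => supp (y₀ + ks (φ j)) (ks (φ j))) atTop (𝓝 (ψ' 0)) :=
      tendsto_clm_apply hlim hkφ
    have h5 := h3.sub h4
    rw [map_zero, add_zero, hy₀, sub_zero] at h5
    refine tendsto_nhds_unique h1 (h5.congr fun j => (h2 j).symm)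
  have hψ'eq : ψ' = ψ := huniq ψ' ψ hψ'n (hsn _) hval hψ1
  rw [hψ'eq] at hlim
  have hlim0 : Tendsto (fun j => ‖supp (y₀ + ks (φ j)) - ψ‖) atTop (𝓝 0) :=
    tendsto_iff_norm_sub_tendsto_zero.1 hlim
  have hev := hlim0.eventually_lt_const hc
  obtain ⟨j, hj⟩ := hev.exists
  have hb := hbad (φ j)
  set k := ks (φ j) with hk
  have hlow : 0 ≤ ‖y₀ + k‖ - ‖y₀‖ - ψ k := by
    have := dual_le (hsn y₀) (y₀ + k)
    rw [← hψ, map_add, hψ1] at this
    rw [hy₀]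
    linarith
  have hup : ‖y₀ + k‖ - ‖y₀‖ - ψ k ≤ ‖supp (y₀ + k) - ψ‖ * ‖k‖ := by
    have h1 := hsv (y₀ + k)
    rw [map_add] at h1
    have h2 := dual_le (hsn (y₀ + k)) y₀
    have h3 := (supp (y₀ + k) - ψ).le_opNorm k
    have h4 := (le_abs_self _).trans h3
    simp only [sub_apply] at h4
    rw [hy₀] at h2 ⊢
    linarith
  apply hb
  rw [Real.norm_eq_abs, abs_of_nonneg hlow]
  refine hup.trans ?_
  exact mul_le_mul_of_nonneg_right hj.le (norm_nonneg _)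

/-- Differentiable norm on a finite-dimensional space: the derivative is continuous. -/
theorem contDiffOn_one_of_unique
    (huniq : ∀ y₀ : Y, ‖y₀‖ = 1 → ∀ ψ₁ ψ₂ : Y →L[ℝ] ℝ, ‖ψ₁‖ ≤ 1 → ‖ψ₂‖ ≤ 1 → ψ₁ y₀ = 1 →
      ψ₂ y₀ = 1 → ψ₁ = ψ₂) : ContDiffOn ℝ 1 (norm : Y → ℝ) {0}ᶜ := by
  have hd : ∀ y : Y, y ≠ 0 → DifferentiableAt ℝ (norm : Y → ℝ) y := by
    intro y hy
    have hr : ‖y‖ ≠ 0 := norm_ne_zero_iff.2 hy
    have hunit : ‖‖y‖⁻¹ • y‖ = 1 := by
      rw [norm_smul, norm_inv, norm_norm, inv_mul_cancel₀ hr]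
    have h1 := differentiableAt_of_unique hunit (huniq _ hunit)
    have h2 := (differentiableAt_norm_smul (t := ‖y‖) hr).1 h1
    rwa [smul_smul, mul_inv_cancel₀ hr, one_smul] at h2
  have hnt : ∀ y : Y, y ≠ 0 → Nontrivial Y := fun y hy => ⟨⟨y, 0, hy⟩⟩
  have hc : ContinuousOn (fderiv ℝ (norm : Y → ℝ)) {0}ᶜ := by
    intro y hy
    have hy0 : y ≠ 0 := hy
    have hnt' := hnt y hy0
    refine ContinuousAt.continuousWithinAt ?_
    refine tendsto_of_subseq_tendsto fun ns hns => ?_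
    have hprop : ProperSpace (Y →L[ℝ] ℝ) := FiniteDimensional.proper_real _
    obtain ⟨ψ', hψ', φ, hφ, hlim₀⟩ := (isCompact_closedBall (0 : Y →L[ℝ] ℝ) 1).tendsto_subseq
      (x := fun j => fderiv ℝ (norm : Y → ℝ) (ns j)) (fun j => by
        rw [mem_closedBall_zero_iff]
        have := norm_fderiv_le_of_lipschitz (𝕜 := ℝ) (f := (norm : Y → ℝ)) (x₀ := ns j)
          lipschitzWith_one_norm
        simpa using this)
    have hlim : Tendsto (fun j => fderiv ℝ (norm : Y → ℝ) (ns (φ j))) atTop (𝓝 ψ') := hlim₀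
    have hψ'n : ‖ψ'‖ ≤ 1 := by simpa using hψ'
    have hnsφ : Tendsto (fun j => ns (φ j)) atTop (𝓝 y) := hns.comp hφ.tendsto_atTop
    have h1 : Tendsto (fun j => fderiv ℝ (norm : Y → ℝ) (ns (φ j)) (ns (φ j))) atTop (𝓝 (ψ' y)) :=
      tendsto_clm_apply hlim hnsφ
    have h2 : ∀ᶠ j in atTop, fderiv ℝ (norm : Y → ℝ) (ns (φ j)) (ns (φ j)) = ‖ns (φ j)‖ := by
      filter_upwards [hnsφ.eventually_ne hy0] with j hj
      exact (hd _ hj).fderiv_norm_self
    have h3 : Tendsto (fun j => ‖ns (φ j)‖) atTop (𝓝 ‖y‖) := hnsφ.norm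
    have h4 : ψ' y = ‖y‖ := tendsto_nhds_unique h1 (h3.congr' (h2.mono fun j hj => hj.symm))
    have h5 := supp_eq_fderiv (hd y hy0) hψ'n h4
    rw [h5] at hlim
    exact ⟨φ, hlim⟩
  have hdo : DifferentiableOn ℝ (norm : Y → ℝ) {0}ᶜ := fun y hy =>
    (hd y hy).differentiableWithinAt
  have : ContDiffOn ℝ (0 + 1) (norm : Y → ℝ) {0}ᶜ := by
    rw [contDiffOn_succ_iff_fderiv_of_isOpen isOpen_compl_singleton]
    exact ⟨hdo, by simp, contDiffOn_zero.2 hc⟩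
  simpa using this

/-- Every pair of vectors lies in a tangent hyperplane. -/
lemma exists_tangent_unit (hY1 : ContDiffOn ℝ 1 (norm : Y → ℝ) {0}ᶜ) (hrank : 3 ≤ finrank ℝ Y)
    (y h : Y) : ∃ u : Y, ‖u‖ = 1 ∧ fderiv ℝ norm u y = 0 ∧ fderiv ℝ norm u h = 0 := by
  have hnt : Nontrivial Y := Module.nontrivial_of_finrank_pos (R := ℝ) (by omega)
  set P : Submodule ℝ Y := Submodule.span ℝ {y, h} with hP
  have hlt : P < ⊤ := by
    refine lt_top_iff_ne_top.2 fun htop => ?_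
    have h1 : finrank ℝ P ≤ 2 := by
      classical
      have h2 := finrank_span_finset_le_card (R := ℝ) (({y, h} : Finset Y))
      have h3 : (({y, h} : Finset Y)).card ≤ 2 := Finset.card_le_two
      have h4 : P = Submodule.span ℝ (({y, h} : Finset Y) : Set Y) := by
        rw [hP]
        simp
      rw [h4]
      exact h2.trans h3
    rw [htop, finrank_top] at h1
    omega
  obtain ⟨f₀, hf₀, hle⟩ := Submodule.exists_le_ker_of_lt_top P hlt
  set ψ : Y →L[ℝ] ℝ := LinearMap.toContinuousLinearMap f₀ with hψ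
  have hψy : ψ y = 0 := by
    have : y ∈ LinearMap.ker f₀ := hle (Submodule.subset_span (by simp))
    simpa [hψ] using this
  have hψh : ψ h = 0 := by
    have : h ∈ LinearMap.ker f₀ := hle (Submodule.subset_span (by simp))
    simpa [hψ] using this
  have hψ0 : ψ ≠ 0 := by
    intro h0
    apply hf₀
    ext x
    have := congrArg (fun T : Y →L[ℝ] ℝ => T x) h0
    simpa [hψ] using this
  have hsne : (Metric.sphere (0 : Y) 1).Nonempty := NormedSpace.sphere_nonempty.2 zero_le_one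
  obtain ⟨u, hu, hmax⟩ := (isCompact_sphere (0 : Y) 1).exists_isMaxOn hsne ψ.continuous.continuousOn
  have hu1 : ‖u‖ = 1 := by simpa using hu
  have hu0 : u ≠ 0 := by
    intro h0
    rw [h0, norm_zero] at hu1
    exact zero_ne_one hu1
  have hunit : ∀ x : Y, ‖x‖ = 1 → ψ x ≤ ψ u := fun x hx => isMaxOn_iff.1 hmax x (by simpa using hx)
  have hle' : ∀ x : Y, ψ x ≤ ψ u * ‖x‖ := by
    intro x
    by_cases hx : x = 0
    · simp [hx]
    · have hr : 0 < ‖x‖ := norm_pos_iff.2 hx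
      have h1 := hunit (‖x‖⁻¹ • x) (by rw [norm_smul, norm_inv, norm_norm, inv_mul_cancel₀ hr.ne'])
      rw [map_smul, smul_eq_mul, inv_mul_le_iff₀ hr] at h1
      linarith
  have hc : 0 < ψ u := by
    by_contra hcon
    have hcon := not_lt.1 hcon
    apply hψ0
    ext x
    have h1 := hle' x
    have h2 := hle' (-x)
    rw [map_neg, norm_neg] at h2
    have h3 : ψ u * ‖x‖ ≤ 0 := mul_nonpos_of_nonpos_of_nonneg hcon (norm_nonneg _)
    simp only [zero_apply]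
    linarith
  set ψ' : Y →L[ℝ] ℝ := (ψ u)⁻¹ • ψ with hψ'
  have hψ'n : ‖ψ'‖ ≤ 1 := by
    refine ContinuousLinearMap.opNorm_le_bound _ zero_le_one fun x => ?_
    simp only [hψ', smul_apply, smul_eq_mul, Real.norm_eq_abs, abs_mul, one_mul,
      abs_of_pos (inv_pos.2 hc)]
    rw [inv_mul_le_iff₀ hc, abs_le]
    have h1 := hle' x
    have h2 := hle' (-x)
    rw [map_neg, norm_neg] at h2
    constructor <;> linarith
  have hψ'u : ψ' u = ‖u‖ := by
    simp only [hψ', smul_apply, smul_eq_mul, hu1]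
    exact inv_mul_cancel₀ hc.ne'
  have hd : DifferentiableAt ℝ (norm : Y → ℝ) u :=
    (hY1.contDiffAt (isOpen_compl_singleton.mem_nhds hu0)).differentiableAt (by norm_num)
  have heq := supp_eq_fderiv hd hψ'n hψ'u
  refine ⟨u, hu1, ?_, ?_⟩
  · rw [← heq]
    simp [hψ', hψy]
  · rw [← heq]
    simp [hψ', hψh]

end Vale.Agent.Lib.P084T
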